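import Vale.Agent.Lib.P028.Rogers

/-!
The measure of a thin block of arcs with arbitrary centres.
-/

namespace Vale.Agent.Lib.P028

open Finset MeasureTheory Set

/-- The set of `x` with `q x - s` within `ρ` of an integer. -/
def arc (q : ℕ) (s ρ : ℝ) : Set ℝ := {x | ∃ a : ℤ, |(q : ℝ) * x - s - a| < ρ}

lemma isOpen_arc (q : ℕ) (s ρ : ℝ) : IsOpen (arc q s ρ) := by
  have : arc q s ρ = ⋃ a : ℤ, {x | |(q : ℝ) * x - s - a| < ρ} := by
    ext x; simp [arc]
  rw [this]
  refine isOpen_iUnion fun a => ?_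
  exact isOpen_lt (by fun_prop) continuous_const

lemma measurableSet_arc (q : ℕ) (s ρ : ℝ) : MeasurableSet (arc q s ρ) :=
  (isOpen_arc q s ρ).measurableSet

lemma add_mem_arc_iff {q : ℕ} {s ρ t x : ℝ} {n : ℤ} (h : (q : ℝ) * t = n) :
    x + t ∈ arc q s ρ ↔ x ∈ arc q s ρ := by
  constructor
  · rintro ⟨a, ha⟩
    refine ⟨a - n, ?_⟩
    have : (q : ℝ) * x - s - ((a - n : ℤ) : ℝ) = (q : ℝ) * (x + t) - s - a := by
      push_cast; rw [mul_add, h]; ring
    rwa [this]
  · rintro ⟨a, ha⟩
    refine ⟨a + n, ?_⟩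
    have : (q : ℝ) * (x + t) - s - ((a + n : ℤ) : ℝ) = (q : ℝ) * x - s - a := by
      push_cast; rw [mul_add, h]; ring
    rwa [this]

lemma indicator_periodic {A : Set ℝ} {T : ℝ} (hA : ∀ x, x + T ∈ A ↔ x ∈ A) :
    Function.Periodic (A.indicator (fun _ => (1 : ℝ))) T := by
  intro x
  by_cases hx : x ∈ A
  · rw [Set.indicator_of_mem hx, Set.indicator_of_mem ((hA x).mpr hx)]
  · rw [Set.indicator_of_notMem hx, Set.indicator_of_notMem (fun h => hx ((hA x).mp h))]

lemma intervalIntegrable_indicator {A : Set ℝ} (hA : MeasurableSet A) (a b : ℝ) :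
    IntervalIntegrable (A.indicator (fun _ => (1 : ℝ))) volume a b := by
  have h : IntegrableOn (fun _ : ℝ => (1 : ℝ)) (uIoc a b) volume :=
    intervalIntegrable_iff.mp intervalIntegrable_const
  rw [intervalIntegrable_iff]
  exact Integrable.indicator h hA

/-- The integral over `(0, 1]` of the indicator of `A` is the measure of `A ∩ (0, 1]`. -/
lemma integral_indicator_eq {A : Set ℝ} (hA : MeasurableSet A) :
    ∫ x in (0 : ℝ)..1, A.indicator (fun _ => (1 : ℝ)) x = (volume (A ∩ Ioc 0 1)).toReal := by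
  rw [intervalIntegral.integral_of_le zero_le_one, integral_indicator hA]
  simp [Measure.restrict_restrict hA, Measure.real]

lemma integral_shift {A : Set ℝ} (hA : ∀ x, x + 1 ∈ A ↔ x ∈ A) (t : ℝ) :
    ∫ x in (0 : ℝ)..1, A.indicator (fun _ => (1 : ℝ)) (x + t)
      = ∫ x in (0 : ℝ)..1, A.indicator (fun _ => (1 : ℝ)) x := by
  rw [intervalIntegral.integral_comp_add_right]
  have := (indicator_periodic hA).intervalIntegral_add_eq (0 + t) 0
  simpa [add_comm] using this

/-- The exact measure of an arc set inside the unit interval. -/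
lemma integral_arc {q : ℕ} (hq : 0 < q) (s : ℝ) {ρ : ℝ} (h0 : 0 ≤ ρ) (h1 : ρ ≤ 1 / 2) :
    ∫ x in (0 : ℝ)..1, (arc q s ρ).indicator (fun _ => (1 : ℝ)) x = 2 * ρ := by
  set B : Set ℝ := arc 1 s ρ with hB
  have hBm : MeasurableSet B := measurableSet_arc 1 s ρ
  have hBper : ∀ x, x + 1 ∈ B ↔ x ∈ B := fun x =>
    add_mem_arc_iff (q := 1) (t := 1) (n := 1) (by norm_num)
  set g : ℝ → ℝ := B.indicator (fun _ => (1 : ℝ)) with hg
  have hgper : Function.Periodic g 1 := indicator_periodic hBper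
  have hgint : ∀ a b : ℝ, IntervalIntegrable g volume a b :=
    fun a b => intervalIntegrable_indicator hBm a b
  have hq0 : (q : ℝ) ≠ 0 := by positivity
  -- change of variables
  have hcomp : ∀ x : ℝ, (arc q s ρ).indicator (fun _ => (1 : ℝ)) x = g ((q : ℝ) * x) := by
    intro x
    have hiff : x ∈ arc q s ρ ↔ (q : ℝ) * x ∈ B := by
      simp [arc, hB]
    by_cases hx : x ∈ arc q s ρ
    · rw [Set.indicator_of_mem hx, hg, Set.indicator_of_mem (hiff.mp hx)]
    · rw [Set.indicator_of_notMem hx, hg, Set.indicator_of_notMem (fun h => hx (hiff.mpr h))]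
  have hstep1 : ∫ x in (0 : ℝ)..1, (arc q s ρ).indicator (fun _ => (1 : ℝ)) x
      = (q : ℝ)⁻¹ • ∫ u in (0 : ℝ)..(q : ℝ), g u := by
    simp_rw [hcomp]
    have := intervalIntegral.integral_comp_mul_left (a := 0) (b := 1) g hq0
    simpa using this
  have hstep2 : ∫ u in (0 : ℝ)..(q : ℝ), g u = (q : ℝ) * ∫ u in (0 : ℝ)..1, g u := by
    have := hgper.intervalIntegral_add_zsmul_eq (q : ℤ) 0 hgint
    simpa using this
  have hstep3 : ∫ u in (0 : ℝ)..1, g u = ∫ u in (s - 1 / 2)..(s + 1 / 2), g u := by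
    have := hgper.intervalIntegral_add_eq 0 (s - 1 / 2)
    have e : s - 1 / 2 + 1 = s + 1 / 2 := by ring
    rw [e] at this
    simpa using this
  have hstep4 : ∫ u in (s - 1 / 2)..(s + 1 / 2), g u = 2 * ρ := by
    have hle : s - 1 / 2 ≤ s + 1 / 2 := by linarith
    rw [intervalIntegral.integral_of_le hle]
    have hcongr : ∀ u ∈ Ioc (s - 1 / 2) (s + 1 / 2),
        g u = (Ioo (s - ρ) (s + ρ)).indicator (fun _ => (1 : ℝ)) u := by
      intro u hu
      have hiff : u ∈ B ↔ u ∈ Ioo (s - ρ) (s + ρ) := by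
        constructor
        · rintro ⟨a, ha⟩
          have ha' : |1 * u - s - a| < ρ := by simpa using ha
          rw [abs_lt] at ha'
          have hu1 := hu.1
          have hu2 := hu.2
          have haZ : a = 0 := by
            have h3 : (a : ℝ) < 1 := by nlinarith [ha'.1]
            have h4 : (-1 : ℝ) < a := by nlinarith [ha'.2]
            have h5 : a < 1 := by exact_mod_cast h3
            have h6 : -1 < a := by exact_mod_cast h4
            omega
          rw [haZ] at ha'
          simp only [Int.cast_zero, sub_zero, one_mul] at ha'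
          exact ⟨by linarith [ha'.1], by linarith [ha'.2]⟩
        · rintro ⟨h1', h2'⟩
          refine ⟨0, ?_⟩
          simp only [Int.cast_zero, sub_zero, Nat.cast_one, one_mul]
          rw [abs_lt]
          exact ⟨by linarith, by linarith⟩
      by_cases hub : u ∈ B
      · rw [hg, Set.indicator_of_mem hub, Set.indicator_of_mem (hiff.mp hub)]
      · rw [hg, Set.indicator_of_notMem hub,
          Set.indicator_of_notMem (fun h => hub (hiff.mpr h))]
    rw [setIntegral_congr_fun measurableSet_Ioc hcongr]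
    rw [integral_indicator measurableSet_Ioo]
    have hsub : Ioo (s - ρ) (s + ρ) ⊆ Ioc (s - 1 / 2) (s + 1 / 2) := by
      intro u hu
      exact ⟨by linarith [hu.1], by linarith [hu.2]⟩
    rw [Measure.restrict_restrict measurableSet_Ioo, Set.inter_eq_self_of_subset_left hsub]
    simp only [integral_const, smul_eq_mul, mul_one, measureReal_restrict_apply_univ]
    rw [Measure.real, Real.volume_Ioo]
    rw [ENNReal.toReal_ofReal (by linarith)]
    ring
  rw [hstep1, hstep2, hstep3, hstep4]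
  simp only [smul_eq_mul]
  field_simp

section Fibre

variable {L N : ℕ} {S : Finset ℕ} {s ρ : ℕ → ℝ}

/-- All indices of one fibre point in an arc set are congruent modulo `N / q`. -/
lemma fibre_congr {q : ℕ} (hq : 0 < q) (hqN : q ∣ N) (hN : 0 < N) {ρq sq x : ℝ}
    (hthin : 2 * ρq * N ≤ q) {c c' : ℕ}
    (hc : x + c / N ∈ arc q sq ρq) (hc' : x + c' / N ∈ arc q sq ρq) :
    ((N / q : ℕ) : ℤ) ∣ (c : ℤ) - c' := by
  obtain ⟨a, ha⟩ := hc
  obtain ⟨a', ha'⟩ := hc'
  set d := N / q with hd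
  have hNeq : N = q * d := (Nat.mul_div_cancel' hqN).symm
  have hdpos : 0 < d := Nat.div_pos (Nat.le_of_dvd hN hqN) hq
  have hdR : (0 : ℝ) < d := by exact_mod_cast hdpos
  have hqR : (0 : ℝ) < q := by exact_mod_cast hq
  have hNR : (N : ℝ) = q * d := by rw [hNeq]; push_cast; ring
  have hthin' : 2 * ρq * d ≤ 1 := by
    have h : 2 * ρq * (q * d) ≤ q := by rw [← hNR]; exact hthin
    have h2 : (q : ℝ) * (2 * ρq * d) ≤ q * 1 := by nlinarith
    exact le_of_mul_le_mul_left h2 hqR
  rw [abs_lt] at ha ha'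
  -- multiply through by d
  have hcalc : ∀ (e : ℕ) (b : ℤ), d * ((q : ℝ) * (x + e / N) - sq - b)
      = d * ((q : ℝ) * x - sq) + e - d * b := by
    intro e b
    rw [hNR]
    field_simp
    ring
  have h1 := hcalc c a
  have h2 := hcalc c' a'
  have hd1 : -(ρq * d) < d * ((q : ℝ) * x - sq) + c - d * a := by
    rw [← h1]; nlinarith [ha.1]
  have hd2 : d * ((q : ℝ) * x - sq) + c - d * a < ρq * d := by
    rw [← h1]; nlinarith [ha.2]
  have hd3 : -(ρq * d) < d * ((q : ℝ) * x - sq) + c' - d * a' := by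
    rw [← h2]; nlinarith [ha'.1]
  have hd4 : d * ((q : ℝ) * x - sq) + c' - d * a' < ρq * d := by
    rw [← h2]; nlinarith [ha'.2]
  have hint : |(((c : ℤ) - c' - d * (a - a') : ℤ) : ℝ)| < 1 := by
    push_cast
    rw [abs_lt]
    constructor <;> nlinarith
  have hzero : (c : ℤ) - c' - d * (a - a') = 0 := by
    have : |(c : ℤ) - c' - d * (a - a')| < 1 := by
      have h3 : ((|(c : ℤ) - c' - d * (a - a')| : ℤ) : ℝ) < 1 := by
        push_cast
        simpa using hint
      exact_mod_cast h3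
    exact Int.abs_lt_one_iff.mp this
  exact ⟨a - a', by linarith⟩

open scoped Classical in
/-- The indices `c < N / L` with `x + c / N` in the set `E`. -/
noncomputable def fibre (L N : ℕ) (E : Set ℝ) (x : ℝ) : Finset ℕ :=
  (range (N / L)).filter (fun c : ℕ => x + c / N ∈ E)

lemma mem_fibre {L N : ℕ} {E : Set ℝ} {x : ℝ} {c : ℕ} :
    c ∈ fibre L N E x ↔ c < N / L ∧ x + c / N ∈ E := by
  classical
  simp [fibre]

/-- The number of indices of one fibre in an arc set is at most `q / L`. -/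
lemma card_fibre_arc_le {q : ℕ} (hq : 0 < q) (hLq : L ∣ q) (hL : 0 < L) (hqN : q ∣ N) (hN : 0 < N)
    {ρq sq x : ℝ} (hthin : 2 * ρq * N ≤ q) :
    (fibre L N (arc q sq ρq) x).card ≤ q / L := by
  classical
  set d := N / q with hd
  have hNeq : N = q * d := (Nat.mul_div_cancel' hqN).symm
  have hdpos : 0 < d := Nat.div_pos (Nat.le_of_dvd hN hqN) hq
  set m := q / L with hm
  have hqeq : q = L * m := (Nat.mul_div_cancel' hLq).symm
  have hN0 : N / L = m * d := by
    rw [hNeq, hqeq, Nat.mul_assoc, Nat.mul_div_cancel_left _ hL]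
  set F := fibre L N (arc q sq ρq) x with hF
  have hmap : ∀ c ∈ F, c / d ∈ range m := by
    intro c hc
    have hc' := (mem_fibre.mp hc).1
    rw [hN0] at hc'
    exact mem_range.mpr (Nat.div_lt_of_lt_mul (by rwa [mul_comm]))
  have hinj : Set.InjOn (fun c : ℕ => c / d) (F : Set ℕ) := by
    intro c hc c' hc' h
    have hc1 := (mem_fibre.mp hc).2
    have hc2 := (mem_fibre.mp hc').2
    have hdvd := fibre_congr hq hqN hN hthin hc1 hc2
    have hmod : c % d = c' % d := by
      have h2 : (c : ℤ) % d = (c' : ℤ) % d :=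
        Int.emod_eq_emod_iff_emod_sub_eq_zero.mpr (Int.emod_eq_zero_of_dvd hdvd)
      exact_mod_cast h2
    have h' : c / d = c' / d := h
    calc c = d * (c / d) + c % d := (Nat.div_add_mod c d).symm
      _ = d * (c' / d) + c' % d := by rw [h', hmod]
      _ = c' := Nat.div_add_mod c' d
  have := Finset.card_le_card_of_injOn (fun c : ℕ => c / d) hmap hinj
  simpa using this

/-- The pointwise inequality on a fibre, using the Rogers type bound. -/
lemma fibre_ineq (hL : 0 < L) (hN : 0 < N)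
    (h : ∀ q ∈ S, 0 < q ∧ L ∣ q ∧ q ∣ N ∧ 2 * ρ q * N ≤ q) (x : ℝ) :
    ∑ q ∈ S, ((Nat.totient (q / L) : ℝ) / ((q / L : ℕ) : ℝ)) *
        ((fibre L N (arc q (s q) (ρ q)) x).card : ℝ)
      ≤ ((fibre L N (⋃ q ∈ S, arc q (s q) (ρ q)) x).card : ℝ) := by
  classical
  set Q := S.filter (fun q => (fibre L N (arc q (s q) (ρ q)) x).Nonempty) with hQ
  -- choose an index for each q in Q
  have hch : ∀ q ∈ Q, ∃ c, c ∈ fibre L N (arc q (s q) (ρ q)) x := by
    intro q hq
    exact (mem_filter.mp hq).2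
  choose! c0 hc0 using hch
  -- the moduli
  set D := Q.image (fun q => N / q) with hD
  set a : ℕ → ℤ := fun d => (c0 (N / d) : ℤ) with ha
  have hinj : Set.InjOn (fun q => N / q) (Q : Set ℕ) := by
    intro q hq q' hq' he
    have hq1 := h q (mem_filter.mp hq).1
    have hq2 := h q' (mem_filter.mp hq').1
    have he' : N / q = N / q' := he
    have e1 : N = q * (N / q) := (Nat.mul_div_cancel' hq1.2.2.1).symm
    have e2 : N = q' * (N / q') := (Nat.mul_div_cancel' hq2.2.2.1).symm
    have hpos : 0 < N / q := Nat.div_pos (Nat.le_of_dvd hN hq1.2.2.1) hq1.1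
    rw [← he'] at e2
    exact Nat.eq_of_mul_eq_mul_right hpos (e1.symm.trans e2)
  have hdiv : ∀ q ∈ S, N / (N / q) = q := by
    intro q hq
    have hq1 := h q hq
    exact Nat.div_div_self hq1.2.2.1 hN.ne'
  -- the first inequality
  have hstep1 : ∑ q ∈ S, ((Nat.totient (q / L) : ℝ) / ((q / L : ℕ) : ℝ)) *
        ((fibre L N (arc q (s q) (ρ q)) x).card : ℝ)
      ≤ ∑ q ∈ Q, (Nat.totient (q / L) : ℝ) := by
    rw [hQ, Finset.sum_filter]
    apply Finset.sum_le_sum
    intro q hq
    have hq1 := h q hq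
    by_cases hne : (fibre L N (arc q (s q) (ρ q)) x).Nonempty
    · rw [if_pos hne]
      have hcard := card_fibre_arc_le (L := L) (N := N) hq1.1 hq1.2.1 hL hq1.2.2.1 hN
        (sq := s q) (x := x) hq1.2.2.2
      have hmpos : 0 < q / L := Nat.div_pos (Nat.le_of_dvd hq1.1 hq1.2.1) hL
      have hmR : (0 : ℝ) < ((q / L : ℕ) : ℝ) := by exact_mod_cast hmpos
      have hcardR : ((fibre L N (arc q (s q) (ρ q)) x).card : ℝ) ≤ ((q / L : ℕ) : ℝ) := by
        exact_mod_cast hcard
      calc ((Nat.totient (q / L) : ℝ) / ((q / L : ℕ) : ℝ)) *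
            ((fibre L N (arc q (s q) (ρ q)) x).card : ℝ)
          ≤ ((Nat.totient (q / L) : ℝ) / ((q / L : ℕ) : ℝ)) * ((q / L : ℕ) : ℝ) :=
            mul_le_mul_of_nonneg_left hcardR (by positivity)
        _ = (Nat.totient (q / L) : ℝ) := by field_simp
    · rw [if_neg hne]
      rw [Finset.not_nonempty_iff_eq_empty] at hne
      simp [hne]
  refine hstep1.trans ?_
  rcases Q.eq_empty_or_nonempty with hQe | ⟨q1, hq1⟩
  · rw [hQe]; simp
  have hN0 : 0 < N / L := by
    have h1 := h q1 (mem_filter.mp hq1).1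
    exact Nat.div_pos (Nat.le_of_dvd hN (h1.2.1.trans h1.2.2.1)) hL
  have hD0 : ∀ d ∈ D, d ∣ N / L := by
    intro d hd
    obtain ⟨q, hq, rfl⟩ := mem_image.mp hd
    have hq1 := h q (mem_filter.mp hq).1
    have hLq := hq1.2.1
    have e1 : N = q * (N / q) := (Nat.mul_div_cancel' hq1.2.2.1).symm
    have e2 : q = L * (q / L) := (Nat.mul_div_cancel' hLq).symm
    refine ⟨q / L, ?_⟩
    apply Nat.div_eq_of_eq_mul_left hL
    calc N = q * (N / q) := e1
      _ = L * (q / L) * (N / q) := by rw [← e2]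
      _ = N / q * (q / L) * L := by ring
  have hrog := sum_totient_le_card_cosetUnion (N / L) hN0 D hD0 a
  have hsum : ∑ d ∈ D, Nat.totient (N / L / d) = ∑ q ∈ Q, Nat.totient (q / L) := by
    rw [hD, Finset.sum_image hinj]
    apply Finset.sum_congr rfl
    intro q hq
    have hq1 := h q (mem_filter.mp hq).1
    congr 1
    have e1 : N = q * (N / q) := (Nat.mul_div_cancel' hq1.2.2.1).symm
    have e2 : q = L * (q / L) := (Nat.mul_div_cancel' hq1.2.1).symm
    have hdpos : 0 < N / q := Nat.div_pos (Nat.le_of_dvd hN hq1.2.2.1) hq1.1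
    have e3 : N / L = (q / L) * (N / q) := by
      apply Nat.div_eq_of_eq_mul_left hL
      calc N = q * (N / q) := e1
        _ = L * (q / L) * (N / q) := by rw [← e2]
        _ = (q / L) * (N / q) * L := by ring
    rw [e3, Nat.mul_div_cancel _ hdpos]
  have hsub : cosetUnion (N / L) D a ⊆ fibre L N (⋃ q ∈ S, arc q (s q) (ρ q)) x := by
    intro y hy
    obtain ⟨hyN, d, hd, hdvd⟩ := mem_cosetUnion.mp hy
    obtain ⟨q, hq, rfl⟩ := mem_image.mp hd
    have hqS := (mem_filter.mp hq).1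
    have hq1 := h q hqS
    refine mem_fibre.mpr ⟨hyN, Set.mem_biUnion hqS ?_⟩
    have hc := hc0 q hq
    have hc1 := (mem_fibre.mp hc).2
    have ha' : a (N / q) = (c0 q : ℤ) := by
      simp only [ha]
      rw [hdiv q hqS]
    rw [ha'] at hdvd
    obtain ⟨n, hn⟩ := hdvd
    have hdpos : 0 < N / q := Nat.div_pos (Nat.le_of_dvd hN hq1.2.2.1) hq1.1
    have hdR : (0 : ℝ) < ((N / q : ℕ) : ℝ) := by exact_mod_cast hdpos
    have hqR : (0 : ℝ) < q := by exact_mod_cast hq1.1
    have hNR : (N : ℝ) = q * ((N / q : ℕ) : ℝ) := by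
      have e1 : N = q * (N / q) := (Nat.mul_div_cancel' hq1.2.2.1).symm
      conv_lhs => rw [e1]
      push_cast
      ring
    have hnR : (y : ℝ) - c0 q = ((N / q : ℕ) : ℝ) * n := by
      have := congrArg (fun z : ℤ => (z : ℝ)) hn
      simp only [Int.cast_sub, Int.cast_natCast, Int.cast_mul] at this
      exact this
    have ht : (q : ℝ) * (((y : ℝ) - c0 q) / N) = n := by
      rw [hnR, hNR]
      field_simp
    have hadd := add_mem_arc_iff (s := s q) (ρ := ρ q) (x := x + c0 q / N) ht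
    have hrw : x + (y : ℝ) / N = x + c0 q / N + ((y : ℝ) - c0 q) / N := by
      ring
    rw [hrw]
    exact hadd.mpr hc1
  have hcard := Finset.card_le_card hsub
  have hfinal : ∑ q ∈ Q, Nat.totient (q / L) ≤ (fibre L N (⋃ q ∈ S, arc q (s q) (ρ q)) x).card := by
    rw [← hsum]
    exact hrog.trans hcard
  exact_mod_cast hfinal

lemma card_fibre_eq_sum (L N : ℕ) (A : Set ℝ) (x : ℝ) :
    ((fibre L N A x).card : ℝ)
      = ∑ c ∈ range (N / L), A.indicator (fun _ => (1 : ℝ)) (x + c / N) := by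
  classical
  rw [fibre, Finset.card_filter]
  push_cast
  apply Finset.sum_congr rfl
  intro c _
  by_cases h : x + c / N ∈ A
  · rw [if_pos h, Set.indicator_of_mem h]
  · rw [if_neg h, Set.indicator_of_notMem h]

lemma intervalIntegrable_indicator_shift {A : Set ℝ} (hA : MeasurableSet A) (t a b : ℝ) :
    IntervalIntegrable (fun x => A.indicator (fun _ => (1 : ℝ)) (x + t)) volume a b := by
  have hB : MeasurableSet ((fun x : ℝ => x + t) ⁻¹' A) := (measurable_add_const t) hA
  have he : (fun x => A.indicator (fun _ => (1 : ℝ)) (x + t))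
      = ((fun x : ℝ => x + t) ⁻¹' A).indicator (fun _ => (1 : ℝ)) := by
    funext x
    by_cases h : x + t ∈ A
    · rw [Set.indicator_of_mem h, Set.indicator_of_mem (by simpa using h)]
    · rw [Set.indicator_of_notMem h, Set.indicator_of_notMem (by simpa using h)]
  rw [he]
  exact intervalIntegrable_indicator hB a b

lemma intervalIntegrable_card_fibre (L N : ℕ) {A : Set ℝ} (hA : MeasurableSet A) (a b : ℝ) :
    IntervalIntegrable (fun x => ((fibre L N A x).card : ℝ)) volume a b := by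
  simp_rw [card_fibre_eq_sum]
  have := IntervalIntegrable.sum (μ := volume) (a := a) (b := b) (range (N / L))
    (f := fun (c : ℕ) x => A.indicator (fun _ => (1 : ℝ)) (x + (c : ℝ) / N))
    (fun c _ => intervalIntegrable_indicator_shift hA _ a b)
  have e : (fun x => ∑ c ∈ range (N / L), A.indicator (fun _ => (1 : ℝ)) (x + (c : ℝ) / N))
      = ∑ c ∈ range (N / L), fun x => A.indicator (fun _ => (1 : ℝ)) (x + (c : ℝ) / N) := by
    funext x
    simp [Finset.sum_apply]
  rw [e]
  exact this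

lemma integral_card_fibre (L N : ℕ) {A : Set ℝ} (hA : MeasurableSet A)
    (hper : ∀ x, x + 1 ∈ A ↔ x ∈ A) :
    ∫ x in (0 : ℝ)..1, ((fibre L N A x).card : ℝ)
      = ((N / L : ℕ) : ℝ) * ∫ x in (0 : ℝ)..1, A.indicator (fun _ => (1 : ℝ)) x := by
  simp_rw [card_fibre_eq_sum]
  rw [intervalIntegral.integral_finsetSum]
  · simp_rw [integral_shift hper]
    simp
  · intro c _
    exact intervalIntegrable_indicator_shift hA _ _ _

lemma arc_periodic (q : ℕ) (s ρ x : ℝ) : x + 1 ∈ arc q s ρ ↔ x ∈ arc q s ρ :=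
  add_mem_arc_iff (t := 1) (n := q) (by simp)

lemma biUnion_arc_periodic (S : Finset ℕ) (s ρ : ℕ → ℝ) (x : ℝ) :
    x + 1 ∈ ⋃ q ∈ S, arc q (s q) (ρ q) ↔ x ∈ ⋃ q ∈ S, arc q (s q) (ρ q) := by
  simp only [Set.mem_iUnion, arc_periodic]

lemma measurableSet_biUnion_arc (S : Finset ℕ) (s ρ : ℕ → ℝ) :
    MeasurableSet (⋃ q ∈ S, arc q (s q) (ρ q)) :=
  Finset.measurableSet_biUnion _ fun q _ => measurableSet_arc q _ _

/-- **The block inequality.** For arcs with arbitrary centres, thin relative to a common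
multiple `N` of the moduli, all multiples of `L`. -/
theorem block_bound (hL : 0 < L) (hN : 0 < N)
    (h : ∀ q ∈ S, 0 < q ∧ L ∣ q ∧ q ∣ N ∧ 0 ≤ ρ q ∧ 2 * ρ q * N ≤ q) :
    ∑ q ∈ S, ((Nat.totient (q / L) : ℝ) / ((q / L : ℕ) : ℝ)) * (2 * ρ q)
      ≤ (volume ((⋃ q ∈ S, arc q (s q) (ρ q)) ∩ Ioc 0 1)).toReal := by
  classical
  rcases S.eq_empty_or_nonempty with hS | ⟨q1, hq1⟩
  · subst hS; simp
  have hq1' := h q1 hq1
  have hN0 : 0 < N / L := Nat.div_pos (Nat.le_of_dvd hN (hq1'.2.1.trans hq1'.2.2.1)) hL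
  have hN0R : (0 : ℝ) < ((N / L : ℕ) : ℝ) := by exact_mod_cast hN0
  have hE := measurableSet_biUnion_arc S s ρ
  have hper := biUnion_arc_periodic S s ρ
  have hNR : (0 : ℝ) < N := by exact_mod_cast hN
  have hρ : ∀ q ∈ S, ρ q ≤ 1 / 2 := by
    intro q hq
    have hq2 := h q hq
    have hqN : (q : ℝ) ≤ N := by exact_mod_cast Nat.le_of_dvd hN hq2.2.2.1
    have : 2 * ρ q * N ≤ 1 * N := by linarith [hq2.2.2.2.2]
    have h3 := le_of_mul_le_mul_right this hNR
    linarith
  have hineq := fibre_ineq (S := S) (s := s) (ρ := ρ) hL hN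
    (fun q hq => ⟨(h q hq).1, (h q hq).2.1, (h q hq).2.2.1, (h q hq).2.2.2.2⟩)
  have hint : ∫ x in (0 : ℝ)..1, ∑ q ∈ S, ((Nat.totient (q / L) : ℝ) / ((q / L : ℕ) : ℝ)) *
        ((fibre L N (arc q (s q) (ρ q)) x).card : ℝ)
      ≤ ∫ x in (0 : ℝ)..1, ((fibre L N (⋃ q ∈ S, arc q (s q) (ρ q)) x).card : ℝ) := by
    apply intervalIntegral.integral_mono_on zero_le_one
    · have := IntervalIntegrable.sum (μ := volume) (a := (0 : ℝ)) (b := 1) S
        (f := fun (q : ℕ) x => ((Nat.totient (q / L) : ℝ) / ((q / L : ℕ) : ℝ)) *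
          ((fibre L N (arc q (s q) (ρ q)) x).card : ℝ))
        (fun q _ => (intervalIntegrable_card_fibre L N (measurableSet_arc q _ _) _ _).const_mul _)
      have e : (fun x => ∑ q ∈ S, ((Nat.totient (q / L) : ℝ) / ((q / L : ℕ) : ℝ)) *
            ((fibre L N (arc q (s q) (ρ q)) x).card : ℝ))
          = ∑ q ∈ S, fun x => ((Nat.totient (q / L) : ℝ) / ((q / L : ℕ) : ℝ)) *
            ((fibre L N (arc q (s q) (ρ q)) x).card : ℝ) := by
        funext x
        simp [Finset.sum_apply]
      rw [e]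
      exact this
    · exact intervalIntegrable_card_fibre L N hE _ _
    · intro x _
      exact hineq x
  rw [intervalIntegral.integral_finsetSum] at hint
  · rw [integral_card_fibre L N hE hper, integral_indicator_eq hE] at hint
    have hterm : ∀ q ∈ S, ∫ x in (0 : ℝ)..1, ((Nat.totient (q / L) : ℝ) / ((q / L : ℕ) : ℝ)) *
        ((fibre L N (arc q (s q) (ρ q)) x).card : ℝ)
        = ((N / L : ℕ) : ℝ) * (((Nat.totient (q / L) : ℝ) / ((q / L : ℕ) : ℝ)) * (2 * ρ q)) := by
      intro q hq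
      have hq2 := h q hq
      rw [intervalIntegral.integral_const_mul,
        integral_card_fibre L N (measurableSet_arc q _ _) (arc_periodic q _ _),
        integral_arc hq2.1 _ hq2.2.2.2.1 (hρ q hq)]
      ring
    rw [Finset.sum_congr rfl hterm, ← Finset.mul_sum] at hint
    exact le_of_mul_le_mul_left hint hN0R
  · intro q _
    exact (intervalIntegrable_card_fibre L N (measurableSet_arc q _ _) _ _).const_mul _

end Fibre

end Vale.Agent.Lib.P028
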