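import Mathlib

/-!
The Chung-Erdos inequality for finitely many measurable sets in a finite measure space.
-/

namespace Vale.Agent.Lib.P028

open Finset MeasureTheory Set

variable {α : Type*} [MeasurableSpace α] {μ : Measure α} [IsFiniteMeasure μ]

/-- **Chung-Erdos inequality.** -/
theorem chung_erdos {ι : Type*} (K : Finset ι) (E : ι → Set α) (hE : ∀ k ∈ K, MeasurableSet (E k)) :
    (∑ k ∈ K, μ.real (E k)) ^ 2
      ≤ μ.real (⋃ k ∈ K, E k) * ∑ j ∈ K, ∑ k ∈ K, μ.real (E j ∩ E k) := by
  classical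
  set U : Set α := ⋃ k ∈ K, E k with hU
  have hUm : MeasurableSet U := Finset.measurableSet_biUnion _ hE
  -- the functions
  let g : ι → α → ℝ := fun k => (E k).indicator (fun _ => (1 : ℝ))
  have hgi : ∀ k ∈ K, Integrable (g k) μ := fun k hk =>
    (integrable_const (1 : ℝ)).indicator (hE k hk)
  have hgint : ∀ k ∈ K, ∫ x, g k x ∂μ = μ.real (E k) := by
    intro k hk
    simp only [g]
    rw [integral_indicator (hE k hk)]
    simp [Measure.real]
  let f : α → ℝ := fun x => ∑ k ∈ K, g k x
  have hfi : Integrable f μ := integrable_finsetSum _ hgi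
  have hfint : ∫ x, f x ∂μ = ∑ k ∈ K, μ.real (E k) := by
    simp only [f]
    rw [integral_finsetSum _ hgi]
    exact Finset.sum_congr rfl hgint
  -- products
  have hprod : ∀ j k x, g j x * g k x = (E j ∩ E k).indicator (fun _ => (1 : ℝ)) x := by
    intro j k x
    simp only [g]
    by_cases h1 : x ∈ E j <;> by_cases h2 : x ∈ E k <;> simp [h1, h2]
  have hpi : ∀ j ∈ K, ∀ k ∈ K, Integrable (fun x => g j x * g k x) μ := by
    intro j hj k hk
    simp_rw [hprod]
    exact (integrable_const (1 : ℝ)).indicator ((hE j hj).inter (hE k hk))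
  have hpint : ∀ j ∈ K, ∀ k ∈ K, ∫ x, g j x * g k x ∂μ = μ.real (E j ∩ E k) := by
    intro j hj k hk
    simp_rw [hprod]
    rw [integral_indicator ((hE j hj).inter (hE k hk))]
    simp [Measure.real]
  have hfsq : ∀ x, f x * f x = ∑ j ∈ K, ∑ k ∈ K, g j x * g k x := by
    intro x
    simp only [f]
    rw [Finset.sum_mul_sum]
  have hf2i : Integrable (fun x => f x * f x) μ := by
    simp_rw [hfsq]
    exact integrable_finsetSum _ fun j hj => integrable_finsetSum _ fun k hk => hpi j hj k hk
  have hf2int : ∫ x, f x * f x ∂μ = ∑ j ∈ K, ∑ k ∈ K, μ.real (E j ∩ E k) := by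
    simp_rw [hfsq]
    rw [integral_finsetSum _ fun j hj => integrable_finsetSum _ fun k hk => hpi j hj k hk]
    refine Finset.sum_congr rfl fun j hj => ?_
    rw [integral_finsetSum _ fun k hk => hpi j hj k hk]
    exact Finset.sum_congr rfl fun k hk => hpint j hj k hk
  let h : α → ℝ := U.indicator (fun _ => (1 : ℝ))
  have hhi : Integrable h μ := (integrable_const (1 : ℝ)).indicator hUm
  have hhint : ∫ x, h x ∂μ = μ.real U := by
    simp only [h]
    rw [integral_indicator hUm]
    simp [Measure.real]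
  -- the quadratic
  have hzero : ∀ x, x ∉ U → f x = 0 := by
    intro x hx
    simp only [f]
    refine Finset.sum_eq_zero fun k hk => ?_
    have : x ∉ E k := fun hxk => hx (Set.mem_biUnion hk hxk)
    simp [g, this]
  have hquad : ∀ t : ℝ, 0 ≤ μ.real U * (t * t) + (-2 * ∑ k ∈ K, μ.real (E k)) * t
      + ∑ j ∈ K, ∑ k ∈ K, μ.real (E j ∩ E k) := by
    intro t
    have hpt : ∀ x, (f x - t * h x) ^ 2 = f x * f x - 2 * t * f x + t * t * h x := by
      intro x
      by_cases hx : x ∈ U
      · simp only [h, Set.indicator_of_mem hx]; ring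
      · simp only [h, Set.indicator_of_notMem hx, hzero x hx]; ring
    have hnn : 0 ≤ ∫ x, (f x - t * h x) ^ 2 ∂μ := integral_nonneg fun x => sq_nonneg _
    simp_rw [hpt] at hnn
    have i1 : Integrable (fun x => f x * f x - 2 * t * f x) μ := hf2i.sub (hfi.const_mul _)
    have i2 : Integrable (fun x => t * t * h x) μ := hhi.const_mul _
    have e1 : ∫ x, f x * f x - 2 * t * f x + t * t * h x ∂μ
        = ∫ x, f x * f x - 2 * t * f x ∂μ + ∫ x, t * t * h x ∂μ := integral_add i1 i2
    have e2 : ∫ x, f x * f x - 2 * t * f x ∂μ = ∫ x, f x * f x ∂μ - ∫ x, 2 * t * f x ∂μ :=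
      integral_sub hf2i (hfi.const_mul _)
    rw [e1, e2, integral_const_mul, integral_const_mul, hfint, hf2int, hhint] at hnn
    nlinarith [hnn]
  have hd := discrim_le_zero hquad
  rw [discrim] at hd
  nlinarith [hd]

end Vale.Agent.Lib.P028
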