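import Vale.Agent.Lib.P028.Main

/-!
The overlap of two arc sets with a gcd term, and the full measure theorem under a gcd sum bound.
-/

namespace Vale.Agent.Lib.P028

open Finset MeasureTheory Set Filter

/-- The number of integers in an open interval of length `ℓ` is at most `ℓ + 1`. -/
lemma card_int_Ioo_le (c : ℝ) {ℓ : ℝ} (hℓ : 0 ≤ ℓ) :
    (((Finset.Ioo ⌊c⌋ ⌈c + ℓ⌉).card : ℕ) : ℝ) ≤ ℓ + 1 := by
  rw [Int.card_Ioo]
  have h1 : ((⌈c + ℓ⌉ : ℤ) : ℝ) < c + ℓ + 1 := Int.ceil_lt_add_one _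
  have h2 : c - 1 < ((⌊c⌋ : ℤ) : ℝ) := by
    have := Int.lt_floor_add_one c
    linarith
  by_cases hnn : 0 ≤ ⌈c + ℓ⌉ - ⌊c⌋ - 1
  · have e : (((⌈c + ℓ⌉ - ⌊c⌋ - 1).toNat : ℕ) : ℝ) = ((⌈c + ℓ⌉ - ⌊c⌋ - 1 : ℤ) : ℝ) := by
      have := Int.toNat_of_nonneg hnn
      exact_mod_cast this
    rw [e]
    push_cast
    linarith
  · have e : (⌈c + ℓ⌉ - ⌊c⌋ - 1).toNat = 0 := Int.toNat_of_nonpos (by omega)
    rw [e]
    push_cast
    linarith

/-- At most `gcd(q, r) (2 ρ r / gcd(q, r) + 1)` of the points `x + j / r` lie in an arc set of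
modulus `q`. -/
lemma card_fibre_arc_le_gcd {q r : ℕ} (hq : 0 < q) (hr : 0 < r) (s : ℝ) {ρ : ℝ} (hρ : 0 ≤ ρ) (x : ℝ) :
    ((fibre 1 r (arc q s ρ) x).card : ℝ)
      ≤ (Nat.gcd q r : ℝ) * (2 * ρ * ((r / Nat.gcd q r : ℕ) : ℝ) + 1) := by
  classical
  set g := Nat.gcd q r with hg
  have hgpos : 0 < g := Nat.gcd_pos_of_pos_left _ hq
  obtain ⟨q', hq'⟩ : g ∣ q := Nat.gcd_dvd_left q r
  obtain ⟨r', hr'⟩ : g ∣ r := Nat.gcd_dvd_right q r
  have hr'pos : 0 < r' := by
    rcases Nat.eq_zero_or_pos r' with h | h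
    · subst h; omega
    · exact h
  have hdiv : r / g = r' := by
    rw [hr']; exact Nat.mul_div_cancel_left _ hgpos
  have hcop : Nat.Coprime q' r' := by
    have := Nat.coprime_div_gcd_div_gcd (m := q) (n := r) hgpos
    rw [← hg] at this
    rwa [show q / g = q' by rw [hq']; exact Nat.mul_div_cancel_left _ hgpos, hdiv] at this
  rw [hdiv]
  have hr'R : (0 : ℝ) < r' := by exact_mod_cast hr'pos
  have hgR : (0 : ℝ) < g := by exact_mod_cast hgpos
  have hrR : (r : ℝ) = g * r' := by rw [hr']; push_cast; ring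
  have hqR : (q : ℝ) = g * q' := by rw [hq']; push_cast; ring
  -- the real number w
  set w : ℝ := (r' : ℝ) * ((q : ℝ) * x - s) with hw
  set ℓ : ℝ := 2 * ρ * r' with hℓ
  have hℓ0 : 0 ≤ ℓ := by positivity
  set c : ℝ := -w - ρ * r' with hc
  set I : Finset ℤ := Finset.Ioo ⌊c⌋ ⌈c + ℓ⌉ with hI
  have hIcard : ((I.card : ℕ) : ℝ) ≤ ℓ + 1 := card_int_Ioo_le c hℓ0
  -- each point of the fibre gives an integer in I
  have hex : ∀ j ∈ fibre 1 r (arc q s ρ) x, ∃ e : ℤ, e ∈ I ∧ (r' : ℤ) ∣ e - (j : ℤ) * q' := by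
    intro j hj
    obtain ⟨_, a, ha⟩ := mem_fibre.mp hj
    refine ⟨(j : ℤ) * q' - r' * a, ?_, ⟨-a, by ring⟩⟩
    rw [abs_lt] at ha
    have hmul : (q : ℝ) * (x + (j : ℝ) / r) - s - a
        = (w + (((j : ℤ) * q' - r' * a : ℤ) : ℝ)) / r' := by
      have hr0 : (r : ℝ) ≠ 0 := by positivity
      simp only [hw]
      rw [hrR, hqR]
      have hg0 : (g : ℝ) ≠ 0 := hgR.ne'
      have hr'0 : (r' : ℝ) ≠ 0 := hr'R.ne'
      push_cast
      field_simp
      ring
    rw [hmul] at ha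
    have h1 : -(ρ * r') < w + (((j : ℤ) * q' - r' * a : ℤ) : ℝ) := by
      have := ha.1
      rw [lt_div_iff₀ hr'R] at this
      linarith
    have h2 : w + (((j : ℤ) * q' - r' * a : ℤ) : ℝ) < ρ * r' := by
      have := ha.2
      rw [div_lt_iff₀ hr'R] at this
      linarith
    rw [hI, Finset.mem_Ioo]
    constructor
    · rw [Int.floor_lt]; simp only [hc]; linarith
    · rw [Int.lt_ceil]; simp only [hc, hℓ]; linarith
  choose! e he1 he2 using hex
  -- injectivity
  have hmaps : ∀ j ∈ fibre 1 r (arc q s ρ) x, (e j, j / r') ∈ I ×ˢ Finset.range g := by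
    intro j hj
    refine Finset.mem_product.mpr ⟨he1 j hj, ?_⟩
    have hlt : j < r := by
      have := (mem_fibre.mp hj).1
      simpa using this
    refine Finset.mem_range.mpr ?_
    apply Nat.div_lt_of_lt_mul
    rw [mul_comm, ← hr']
    exact hlt
  have hinj : Set.InjOn (fun j => (e j, j / r')) (fibre 1 r (arc q s ρ) x : Set ℕ) := by
    intro j hj j' hj' h
    have h1 : e j = e j' := (Prod.ext_iff.mp h).1
    have h2 : j / r' = j' / r' := (Prod.ext_iff.mp h).2
    have d1 := he2 j hj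
    have d2 := he2 j' hj'
    rw [h1] at d1
    have d3 : (r' : ℤ) ∣ ((j' : ℤ) - j) * q' := by
      have := dvd_sub d1 d2
      have e2 : e j' - (j : ℤ) * q' - (e j' - (j' : ℤ) * q') = ((j' : ℤ) - j) * q' := by ring
      rwa [e2] at this
    have hcopZ : IsCoprime (r' : ℤ) (q' : ℤ) := by
      rw [Nat.isCoprime_iff_coprime]
      exact hcop.symm
    have d4 : (r' : ℤ) ∣ (j' : ℤ) - j := hcopZ.dvd_of_dvd_mul_right d3
    have hmod : j % r' = j' % r' := by
      have h3 : (j : ℤ) % r' = (j' : ℤ) % r' := by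
        apply Int.emod_eq_emod_iff_emod_sub_eq_zero.mpr
        apply Int.emod_eq_zero_of_dvd
        have := dvd_neg.mpr d4
        simpa using this
      exact_mod_cast h3
    calc j = r' * (j / r') + j % r' := (Nat.div_add_mod j r').symm
      _ = r' * (j' / r') + j' % r' := by rw [h2, hmod]
      _ = j' := Nat.div_add_mod j' r'
  have hcard := Finset.card_le_card_of_injOn (fun j => (e j, j / r')) hmaps hinj
  rw [Finset.card_product, Finset.card_range] at hcard
  have hcardR : ((fibre 1 r (arc q s ρ) x).card : ℝ) ≤ (I.card : ℝ) * g := by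
    exact_mod_cast hcard
  calc ((fibre 1 r (arc q s ρ) x).card : ℝ) ≤ (I.card : ℝ) * g := hcardR
    _ ≤ (ℓ + 1) * g := mul_le_mul_of_nonneg_right hIcard hgR.le
    _ = (g : ℝ) * (2 * ρ * r' + 1) := by simp only [hℓ]; ring

lemma arc_period_inv {r : ℕ} (hr : 0 < r) (s ρ x : ℝ) :
    x + 1 / (r : ℝ) ∈ arc r s ρ ↔ x ∈ arc r s ρ := by
  have hr0 : (r : ℝ) ≠ 0 := by positivity
  refine add_mem_arc_iff (t := 1 / (r : ℝ)) (n := 1) ?_
  push_cast
  field_simp

/-- **The overlap of two arc sets.** -/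
theorem P_inter_arc_le {q r : ℕ} (hq : 0 < q) (hr : 0 < r) (s s' : ℝ) {ρ ρ' : ℝ}
    (hρ : 0 ≤ ρ) :
    P.real (arc q s ρ ∩ arc r s' ρ')
      ≤ (2 * ρ + (Nat.gcd q r : ℝ) / r) * P.real (arc r s' ρ') := by
  classical
  set A := arc q s ρ with hA
  set B := arc r s' ρ' with hB
  have hAm : MeasurableSet A := measurableSet_arc q s ρ
  have hBm : MeasurableSet B := measurableSet_arc r s' ρ'
  have hrR : (0 : ℝ) < r := by exact_mod_cast hr
  set g := Nat.gcd q r with hg
  have hgpos : 0 < g := Nat.gcd_pos_of_pos_left _ hq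
  have hgR : (0 : ℝ) < g := by exact_mod_cast hgpos
  set C : ℝ := (g : ℝ) * (2 * ρ * ((r / g : ℕ) : ℝ) + 1) with hC
  have hC0 : 0 ≤ C := by positivity
  have hAper : ∀ x, x + 1 ∈ A ↔ x ∈ A := arc_periodic q s ρ
  have hBper : ∀ x, x + 1 ∈ B ↔ x ∈ B := arc_periodic r s' ρ'
  have hABper : ∀ x, x + 1 ∈ A ∩ B ↔ x ∈ A ∩ B := by
    intro x
    simp only [Set.mem_inter_iff, hAper, hBper]
  have hBstep : ∀ (c : ℕ) (x : ℝ), x + (c : ℝ) / r ∈ B ↔ x ∈ B :=
    fun c x => periodic_iterate (arc_period_inv hr s' ρ') x c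
  -- r times the measure of the intersection
  have h1 : (r : ℝ) * P.real (A ∩ B)
      = ∑ j ∈ Finset.range r, ∫ x in (0 : ℝ)..1,
          A.indicator (fun _ => (1 : ℝ)) (x + (j : ℝ) / r) * B.indicator (fun _ => (1 : ℝ)) x := by
    have hterm : ∀ j ∈ Finset.range r, ∫ x in (0 : ℝ)..1,
        A.indicator (fun _ => (1 : ℝ)) (x + (j : ℝ) / r) * B.indicator (fun _ => (1 : ℝ)) x
        = P.real (A ∩ B) := by
      intro j _
      rw [← integral_indicator_eq_P (hAm.inter hBm), ← integral_shift hABper ((j : ℝ) / r)]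
      congr 1
      funext x
      by_cases h1 : x + (j : ℝ) / r ∈ A <;> by_cases h2 : x ∈ B <;>
        simp [Set.indicator, h1, h2, hBstep j x]
    rw [Finset.sum_congr rfl hterm]
    simp
  -- the pointwise bound
  have hpt : ∀ x, ∑ j ∈ Finset.range r,
      A.indicator (fun _ => (1 : ℝ)) (x + (j : ℝ) / r) * B.indicator (fun _ => (1 : ℝ)) x
      ≤ C * B.indicator (fun _ => (1 : ℝ)) x := by
    intro x
    rw [← Finset.sum_mul]
    refine mul_le_mul_of_nonneg_right ?_ (Set.indicator_nonneg (fun _ _ => zero_le_one) x)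
    have h2 := card_fibre_arc_le_gcd hq hr s hρ x
    have h3 := card_fibre_eq_sum 1 r A x
    simp only [Nat.div_one] at h3
    rw [← h3]
    exact h2
  have hintg : ∀ j ∈ Finset.range r, IntervalIntegrable (fun x =>
      A.indicator (fun _ => (1 : ℝ)) (x + (j : ℝ) / r) * B.indicator (fun _ => (1 : ℝ)) x)
      volume 0 1 := by
    intro j _
    have hm : MeasurableSet (((fun x : ℝ => x + (j : ℝ) / r) ⁻¹' A) ∩ B) :=
      ((measurable_add_const _) hAm).inter hBm
    have he : (fun x => A.indicator (fun _ => (1 : ℝ)) (x + (j : ℝ) / r) *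
        B.indicator (fun _ => (1 : ℝ)) x)
        = (((fun x : ℝ => x + (j : ℝ) / r) ⁻¹' A) ∩ B).indicator (fun _ => (1 : ℝ)) := by
      funext x
      by_cases h1 : x + (j : ℝ) / r ∈ A <;> by_cases h2 : x ∈ B <;>
        simp [Set.indicator, h1, h2]
    rw [he]
    exact intervalIntegrable_indicator hm _ _
  have h2 : ∑ j ∈ Finset.range r, ∫ x in (0 : ℝ)..1,
      A.indicator (fun _ => (1 : ℝ)) (x + (j : ℝ) / r) * B.indicator (fun _ => (1 : ℝ)) x
      ≤ C * P.real B := by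
    rw [← intervalIntegral.integral_finsetSum hintg, ← integral_indicator_eq_P hBm,
      ← intervalIntegral.integral_const_mul]
    apply intervalIntegral.integral_mono_on zero_le_one
    · have := IntervalIntegrable.sum (μ := volume) (a := (0 : ℝ)) (b := 1) (Finset.range r)
        (f := fun (j : ℕ) x => A.indicator (fun _ => (1 : ℝ)) (x + (j : ℝ) / r) *
          B.indicator (fun _ => (1 : ℝ)) x) hintg
      have e : (fun x => ∑ j ∈ Finset.range r, A.indicator (fun _ => (1 : ℝ)) (x + (j : ℝ) / r) *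
            B.indicator (fun _ => (1 : ℝ)) x)
          = ∑ j ∈ Finset.range r, fun x => A.indicator (fun _ => (1 : ℝ)) (x + (j : ℝ) / r) *
            B.indicator (fun _ => (1 : ℝ)) x := by
        funext x
        simp [Finset.sum_apply]
      rw [e]
      exact this
    · exact (intervalIntegrable_indicator hBm _ _).const_mul _
    · intro x _
      exact hpt x
  have h3 : (r : ℝ) * P.real (A ∩ B) ≤ C * P.real B := by rw [h1]; exact h2
  have hgr : g ∣ r := Nat.gcd_dvd_right q r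
  have hrdiv : (r : ℝ) = g * ((r / g : ℕ) : ℝ) := by
    conv_lhs => rw [← Nat.mul_div_cancel' hgr]
    push_cast
    ring
  have hmain : P.real (A ∩ B) ≤ (C / r) * P.real B := by
    rw [div_mul_eq_mul_div, le_div_iff₀ hrR]
    linarith
  have hCr : C / r = 2 * ρ + (g : ℝ) / r := by
    have hr'pos : ((r / g : ℕ) : ℝ) ≠ 0 := by
      intro h
      rw [h, mul_zero] at hrdiv
      exact hrR.ne' hrdiv
    simp only [hC]
    rw [hrdiv]
    field_simp
  rw [hCr] at hmain
  exact hmain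

/-- The double sum bound with weights depending on the larger index. -/
lemma double_sum_le_weighted (K : Finset ℕ) (E : ℕ → Set ℝ) (b : ℕ → ℕ → ℝ)
    (hpair : ∀ j k, j < k → P.real (E j ∩ E k) ≤ (P.real (E j) + b j k) * P.real (E k))
    (hb : ∀ j k, 0 ≤ b j k) :
    ∑ j ∈ K, ∑ k ∈ K, P.real (E j ∩ E k)
      ≤ (∑ k ∈ K, P.real (E k)) ^ 2 + ∑ k ∈ K, P.real (E k)
        + 2 * ∑ k ∈ K, (∑ j ∈ range k, b j k) * P.real (E k) := by
  classical
  set m : ℕ → ℝ := fun k => P.real (E k) with hm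
  have hm0 : ∀ k, 0 ≤ m k := fun k => measureReal_nonneg
  set T := ∑ k ∈ K, m k with hT
  let e1 : ℕ → ℕ → ℝ := fun j k => if j = k then m j else 0
  let e2 : ℕ → ℕ → ℝ := fun j k => if j < k then b j k * m k else 0
  let e3 : ℕ → ℕ → ℝ := fun j k => if k < j then b k j * m j else 0
  have hpt : ∀ j k, P.real (E j ∩ E k) ≤ m j * m k + e1 j k + e2 j k + e3 j k := by
    intro j k
    rcases lt_trichotomy j k with h | h | h
    · have := hpair j k h
      simp only [e1, e2, e3, if_neg h.ne, if_pos h, if_neg h.not_gt]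
      simp only [hm]
      nlinarith
    · subst h
      simp only [e1, e2, e3, if_true, if_neg (lt_irrefl j), Set.inter_self]
      simp only [hm]
      nlinarith [hm0 j, mul_nonneg (hm0 j) (hm0 j)]
    · have := hpair k j h
      simp only [e1, e2, e3, if_neg h.ne', if_neg h.not_gt, if_pos h]
      rw [Set.inter_comm]
      simp only [hm]
      nlinarith
  have h1 : ∑ j ∈ K, ∑ k ∈ K, m j * m k = T ^ 2 := by
    rw [sq, hT, Finset.sum_mul_sum]
  have h2 : ∑ j ∈ K, ∑ k ∈ K, e1 j k = T := by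
    refine Finset.sum_congr rfl fun j hj => ?_
    simp [e1, hj]
  have h3 : ∑ j ∈ K, ∑ k ∈ K, e2 j k ≤ ∑ k ∈ K, (∑ j ∈ range k, b j k) * m k := by
    rw [Finset.sum_comm]
    refine Finset.sum_le_sum fun k _ => ?_
    have h4 : ∑ j ∈ K, e2 j k = ∑ j ∈ K.filter (· < k), b j k * m k := by
      rw [Finset.sum_filter]
    rw [h4, ← Finset.sum_mul]
    refine mul_le_mul_of_nonneg_right ?_ (hm0 k)
    refine Finset.sum_le_sum_of_subset_of_nonneg ?_ fun j _ _ => hb j k
    intro j hj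
    exact Finset.mem_range.mpr (Finset.mem_filter.mp hj).2
  have h3' : ∑ j ∈ K, ∑ k ∈ K, e3 j k = ∑ j ∈ K, ∑ k ∈ K, e2 j k := by
    rw [Finset.sum_comm]
  calc ∑ j ∈ K, ∑ k ∈ K, P.real (E j ∩ E k)
      ≤ ∑ j ∈ K, ∑ k ∈ K, (m j * m k + e1 j k + e2 j k + e3 j k) :=
        Finset.sum_le_sum fun j _ => Finset.sum_le_sum fun k _ => hpt j k
    _ = ∑ j ∈ K, ∑ k ∈ K, m j * m k + ∑ j ∈ K, ∑ k ∈ K, e1 j k + ∑ j ∈ K, ∑ k ∈ K, e2 j k
          + ∑ j ∈ K, ∑ k ∈ K, e3 j k := by
        simp only [Finset.sum_add_distrib]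
    _ ≤ T ^ 2 + T + 2 * ∑ k ∈ K, (∑ j ∈ range k, b j k) * m k := by
        rw [h1, h2, h3']
        linarith [h3]

/-- Almost every point of the unit interval is in infinitely many of the sets, under a
second moment condition along a subsequence. -/
theorem ae_frequently_mem_weighted (E : ℕ → Set ℝ) (hE : ∀ k, MeasurableSet (E k)) (b : ℕ → ℕ → ℝ)
    (hpair : ∀ j k, j < k → P.real (E j ∩ E k) ≤ (P.real (E j) + b j k) * P.real (E k))
    (hb : ∀ j k, 0 ≤ b j k)
    (hdiv : ¬ Summable fun k => P.real (E k))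
    (H : ∀ ε : ℝ, 0 < ε → ∃ᶠ N : ℕ in atTop, ∑ k ∈ range N, (∑ j ∈ range k, b j k) * P.real (E k)
      ≤ ε * (∑ k ∈ range N, P.real (E k)) ^ 2) :
    ∀ᵐ x ∂P, ∀ n : ℕ, ∃ k, n ≤ k ∧ x ∈ E k := by
  have hP1 : P.real (univ : Set ℝ) = 1 := by simp [Measure.real]
  rw [ae_all_iff]
  intro n
  set V : Set ℝ := ⋃ k, ⋃ (_ : n ≤ k), E k with hV
  have hVm : MeasurableSet V :=
    MeasurableSet.iUnion fun k => MeasurableSet.iUnion fun _ => hE k
  have hmem : ∀ x, x ∈ V ↔ ∃ k, n ≤ k ∧ x ∈ E k := by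
    intro x
    simp [hV]
  have hnn : ∀ k, 0 ≤ P.real (E k) := fun k => measureReal_nonneg
  have ht := (not_summable_iff_tendsto_nat_atTop_of_nonneg hnn).mp hdiv
  have hbn : ∀ k, 0 ≤ ∑ j ∈ range k, b j k := fun k => Finset.sum_nonneg fun j _ => hb j k
  have hV1 : 1 ≤ P.real V := by
    by_contra hlt
    push Not at hlt
    set δ := 1 - P.real V with hδ
    have hδ0 : 0 < δ := by linarith
    set T0 := ∑ k ∈ Finset.range n, P.real (E k) with hT0
    have hT00 : 0 ≤ T0 := Finset.sum_nonneg fun k _ => hnn k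
    have hev := (ht.eventually_ge_atTop (2 * T0 + 16 / δ + 1)).and (eventually_ge_atTop n)
    obtain ⟨N, hN1, hN2⟩ := ((H (δ / 16) (by positivity)).and_eventually hev).exists
    obtain ⟨hN3, hN4⟩ := hN2
    set TN := ∑ k ∈ Finset.range N, P.real (E k) with hTN
    set RN := ∑ k ∈ Finset.range N, (∑ j ∈ range k, b j k) * P.real (E k) with hRN
    set T := ∑ k ∈ Finset.Ico n N, P.real (E k) with hT
    have hIco : T = TN - T0 := Finset.sum_Ico_eq_sub _ hN4
    have hT0le : 2 * T0 ≤ TN := by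
      have : 0 ≤ 16 / δ := by positivity
      linarith
    have hTlow : TN / 2 ≤ T := by rw [hIco]; linarith
    have hTle : T ≤ TN := by rw [hIco]; linarith
    have hR : ∑ k ∈ Finset.Ico n N, (∑ j ∈ range k, b j k) * P.real (E k) ≤ RN := by
      refine Finset.sum_le_sum_of_subset_of_nonneg ?_ fun k _ _ => mul_nonneg (hbn k) (hnn k)
      intro k hk
      exact Finset.mem_range.mpr (Finset.mem_Ico.mp hk).2
    have h1 := chung_erdos (μ := P) (Finset.Ico n N) E (fun k _ => hE k)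
    have h2 := double_sum_le_weighted (Finset.Ico n N) E b hpair hb
    have hsub : (⋃ k ∈ Finset.Ico n N, E k) ⊆ V := by
      intro x hx
      simp only [Set.mem_iUnion, Finset.mem_Ico] at hx
      obtain ⟨k, hk, hx⟩ := hx
      exact (hmem x).mpr ⟨k, hk.1, hx⟩
    have h3 : P.real (⋃ k ∈ Finset.Ico n N, E k) ≤ P.real V :=
      measureReal_mono hsub (measure_ne_top _ _)
    have h4 : 0 ≤ P.real (⋃ k ∈ Finset.Ico n N, E k) := measureReal_nonneg
    have hRN0 : 0 ≤ RN :=
      Finset.sum_nonneg fun k _ => mul_nonneg (hbn k) (hnn k)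
    have hTN0 : 0 < TN := by
      have : 0 ≤ 16 / δ := by positivity
      linarith
    have hT0' : 0 ≤ T := by linarith
    have h5 : T ^ 2 ≤ P.real V * (T ^ 2 + T + 2 * RN) := by
      calc T ^ 2 ≤ P.real (⋃ k ∈ Finset.Ico n N, E k) *
            ∑ j ∈ Finset.Ico n N, ∑ k ∈ Finset.Ico n N, P.real (E j ∩ E k) := h1
        _ ≤ P.real (⋃ k ∈ Finset.Ico n N, E k) * (T ^ 2 + T + 2 * RN) := by
            refine mul_le_mul_of_nonneg_left (h2.trans ?_) h4
            linarith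
        _ ≤ P.real V * (T ^ 2 + T + 2 * RN) :=
            mul_le_mul_of_nonneg_right h3 (by positivity)
    have hPV : P.real V = 1 - δ := by rw [hδ]; ring
    have h6 : δ * T ^ 2 ≤ T + 2 * RN := by
      rw [hPV] at h5
      have hPV0 : 0 ≤ P.real V := measureReal_nonneg
      have hle1 : 1 - δ ≤ 1 := by linarith
      have : (1 - δ) * (T + 2 * RN) ≤ 1 * (T + 2 * RN) :=
        mul_le_mul_of_nonneg_right hle1 (by positivity)
      nlinarith
    have h7 : TN ^ 2 / 4 ≤ T ^ 2 := by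
      have : (TN / 2) ^ 2 ≤ T ^ 2 := by
        apply pow_le_pow_left₀ (by positivity) hTlow
      calc TN ^ 2 / 4 = (TN / 2) ^ 2 := by ring
        _ ≤ T ^ 2 := this
    have h8 : δ * (TN ^ 2 / 4) ≤ TN + 2 * (δ / 16 * TN ^ 2) := by
      have h81 : δ * (TN ^ 2 / 4) ≤ δ * T ^ 2 := mul_le_mul_of_nonneg_left h7 hδ0.le
      linarith
    have h9 : δ / 8 * TN ≤ 1 := by
      have h91 : TN * (δ / 8 * TN) ≤ TN * 1 := by nlinarith
      exact le_of_mul_le_mul_left h91 hTN0
    have h10 : 16 / δ < TN := by linarith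
    rw [div_lt_iff₀ hδ0] at h10
    nlinarith
  have hnull : P Vᶜ = 0 := by
    have h := measureReal_compl (μ := P) hVm
    have h0 : P.real Vᶜ ≤ 0 := by
      rw [h, hP1]; linarith
    have h1 : P.real Vᶜ = 0 := le_antisymm h0 measureReal_nonneg
    rwa [measureReal_eq_zero_iff (measure_ne_top _ _)] at h1
  have hae : ∀ᵐ x ∂P, x ∈ V := by
    rw [ae_iff]
    exact hnull
  filter_upwards [hae] with x hx
  exact (hmem x).mp hx

/-- **The gcd second moment theorem.** -/
theorem gcd_sum_theorem (ψ y : ℕ → ℝ) (hψ : ∀ q, 0 ≤ ψ q) (hψ2 : ∀ q, ψ q ≤ 1 / 2)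
    (S : Set ℕ) [DecidablePred (· ∈ S)] (h0 : 0 ∉ S)
    (hdiv : ¬ Summable (S.indicator ψ))
    (hgcd : ∀ ε : ℝ, 0 < ε → ∃ᶠ N : ℕ in atTop,
      ∑ r ∈ (Finset.range N).filter (· ∈ S), ψ r *
          ((∑ q ∈ (Finset.range r).filter (· ∈ S), (Nat.gcd q r : ℝ)) / r)
        ≤ ε * (∑ r ∈ (Finset.range N).filter (· ∈ S), ψ r) ^ 2) :
    ∀ᵐ x : ℝ, ∃ᶠ q : ℕ in atTop, ∃ a : ℤ, |(q : ℝ) * x - y q - a| < ψ q := by
  classical
  let E : ℕ → Set ℝ := fun k => if k ∈ S then arc k (y k) (ψ k) else ∅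
  have hEm : ∀ k, MeasurableSet (E k) := by
    intro k
    simp only [E]
    split_ifs
    · exact measurableSet_arc _ _ _
    · exact MeasurableSet.empty
  have hpos : ∀ k, k ∈ S → 0 < k := by
    intro k hk
    rcases Nat.eq_zero_or_pos k with h | h
    · subst h; exact absurd hk h0
    · exact h
  have hEP : ∀ k, P.real (E k) = if k ∈ S then 2 * ψ k else 0 := by
    intro k
    by_cases hk : k ∈ S
    · simp only [E, if_pos hk]
      exact P_arc_eq (hpos k hk) _ (hψ k) (hψ2 k)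
    · simp [E, hk]
  let b : ℕ → ℕ → ℝ := fun j k => if j ∈ S ∧ k ∈ S then (Nat.gcd j k : ℝ) / k else 0
  have hb : ∀ j k, 0 ≤ b j k := by
    intro j k
    simp only [b]
    split_ifs
    · positivity
    · exact le_rfl
  have hpair : ∀ j k, j < k → P.real (E j ∩ E k) ≤ (P.real (E j) + b j k) * P.real (E k) := by
    intro j k _
    by_cases hj : j ∈ S
    · by_cases hk : k ∈ S
      · have h1 := P_inter_arc_le (hpos j hj) (hpos k hk) (y j) (y k) (hψ j) (ρ' := ψ k)
        simp only [E, b, if_pos hj, if_pos hk, if_pos (And.intro hj hk)]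
        rw [P_arc_eq (hpos j hj) _ (hψ j) (hψ2 j)]
        exact h1
      · simp [E, hk]
    · have hE0 : E j = ∅ := by simp [E, hj]
      rw [hE0]
      simp only [Set.empty_inter, measureReal_empty]
      exact mul_nonneg (add_nonneg le_rfl (hb j k)) measureReal_nonneg
  have hm : ∀ k, P.real (E k) = 2 * S.indicator ψ k := by
    intro k
    rw [hEP]
    by_cases hk : k ∈ S
    · simp [hk]
    · simp [hk]
  have hdiv' : ¬ Summable fun k => P.real (E k) := by
    intro h
    apply hdiv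
    have h2 : Summable fun k => (1 / 2 : ℝ) * P.real (E k) := h.mul_left _
    refine h2.congr fun k => ?_
    rw [hm]
    ring
  have hH : ∀ ε : ℝ, 0 < ε → ∃ᶠ N : ℕ in atTop,
      ∑ k ∈ range N, (∑ j ∈ range k, b j k) * P.real (E k)
        ≤ ε * (∑ k ∈ range N, P.real (E k)) ^ 2 := by
    intro ε hε
    refine (hgcd (2 * ε) (by positivity)).mono fun N hN => ?_
    have e1 : ∑ k ∈ range N, P.real (E k) = 2 * ∑ r ∈ (Finset.range N).filter (· ∈ S), ψ r := by
      rw [Finset.sum_filter, Finset.mul_sum]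
      refine Finset.sum_congr rfl fun k _ => ?_
      rw [hEP]
      split_ifs <;> ring
    have e2 : ∑ k ∈ range N, (∑ j ∈ range k, b j k) * P.real (E k)
        = 2 * ∑ r ∈ (Finset.range N).filter (· ∈ S), ψ r *
          ((∑ q ∈ (Finset.range r).filter (· ∈ S), (Nat.gcd q r : ℝ)) / r) := by
      rw [Finset.sum_filter, Finset.mul_sum]
      refine Finset.sum_congr rfl fun k _ => ?_
      rw [hEP]
      by_cases hk : k ∈ S
      · simp only [if_pos hk]
        have e3 : ∑ j ∈ range k, b j k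
            = (∑ q ∈ (Finset.range k).filter (· ∈ S), (Nat.gcd q k : ℝ)) / k := by
          rw [Finset.sum_filter, Finset.sum_div]
          refine Finset.sum_congr rfl fun j _ => ?_
          simp only [b, hk, and_true]
          split_ifs <;> simp
        rw [e3]
        ring
      · simp [hk]
    rw [e1, e2]
    calc 2 * ∑ r ∈ (Finset.range N).filter (· ∈ S), ψ r *
          ((∑ q ∈ (Finset.range r).filter (· ∈ S), (Nat.gcd q r : ℝ)) / r)
        ≤ 2 * (2 * ε * (∑ r ∈ (Finset.range N).filter (· ∈ S), ψ r) ^ 2) := by linarith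
      _ = ε * (2 * ∑ r ∈ (Finset.range N).filter (· ∈ S), ψ r) ^ 2 := by ring
  have hae := ae_frequently_mem_weighted E hEm b hpair hb hdiv' hH
  let W : Set ℝ := {x | ∃ᶠ q : ℕ in atTop, ∃ a : ℤ, |(q : ℝ) * x - y q - a| < ψ q}
  have hW : ∀ (n : ℤ) (x : ℝ), x + n ∈ W ↔ x ∈ W := by
    intro n x
    have hiff : ∀ q : ℕ, (∃ a : ℤ, |(q : ℝ) * (x + n) - y q - a| < ψ q)
        ↔ ∃ a : ℤ, |(q : ℝ) * x - y q - a| < ψ q := by
      intro q
      constructor
      · rintro ⟨c, hc⟩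
        refine ⟨c - q * n, ?_⟩
        have e : (q : ℝ) * x - y q - ((c - q * n : ℤ) : ℝ) = (q : ℝ) * (x + n) - y q - c := by
          push_cast; ring
        rwa [e]
      · rintro ⟨c, hc⟩
        refine ⟨c + q * n, ?_⟩
        have e : (q : ℝ) * (x + n) - y q - ((c + q * n : ℤ) : ℝ) = (q : ℝ) * x - y q - c := by
          push_cast; ring
        rwa [e]
    simp only [W, Set.mem_ofPred_eq, hiff]
  have hfinal : ∀ᵐ x ∂P, x ∈ W := by
    filter_upwards [hae] with x hx
    show ∃ᶠ q : ℕ in atTop, ∃ a : ℤ, |(q : ℝ) * x - y q - a| < ψ q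
    rw [Filter.frequently_atTop]
    intro B
    obtain ⟨k, hk, hxk⟩ := hx B
    by_cases hkS : k ∈ S
    · simp only [E, if_pos hkS] at hxk
      obtain ⟨a, ha⟩ := hxk
      exact ⟨k, hk, a, ha⟩
    · simp [E, hkS] at hxk
  exact ae_of_ae_unit hW hfinal

end Vale.Agent.Lib.P028
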