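import Vale.Agent.Lib.P028.Block
import Vale.Agent.Lib.P028.ChungErdos

/-!
Independence of a cell-invariant set and a periodic set; the pair bound.
-/

namespace Vale.Agent.Lib.P028

open Finset MeasureTheory Set

/-- Lebesgue measure on the unit interval. -/
noncomputable abbrev P : Measure ℝ := volume.restrict (Ioc (0 : ℝ) 1)

instance : IsFiniteMeasure P := by
  refine ⟨?_⟩
  simp [P]

lemma P_real_eq {A : Set ℝ} (hA : MeasurableSet A) : P.real A = (volume (A ∩ Ioc 0 1)).toReal := by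
  simp [Measure.real, Measure.restrict_apply hA]

lemma integral_indicator_eq_P {A : Set ℝ} (hA : MeasurableSet A) :
    ∫ x in (0 : ℝ)..1, A.indicator (fun _ => (1 : ℝ)) x = P.real A := by
  rw [integral_indicator_eq hA, P_real_eq hA]

/-- Splitting the unit interval in `M` equal cells. -/
lemma integral_split {g : ℝ → ℝ} (hg : ∀ a b, IntervalIntegrable g volume a b) {M : ℕ} (hM : 0 < M) :
    ∫ x in (0 : ℝ)..1, g x = ∑ c ∈ range M, ∫ x in (0 : ℝ)..(1 / M), g (x + c / M) := by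
  have hM0 : (M : ℝ) ≠ 0 := by positivity
  have h1 : ∀ c ∈ range M, ∫ x in (0 : ℝ)..(1 / M), g (x + c / M)
      = ∫ x in ((c : ℕ) / (M : ℝ))..(((c + 1 : ℕ)) / (M : ℝ)), g x := by
    intro c _
    rw [intervalIntegral.integral_comp_add_right]
    congr 1
    · ring
    · push_cast; field_simp; ring
  rw [Finset.sum_congr rfl h1]
  have := intervalIntegral.sum_integral_adjacent_intervals (f := g) (μ := volume)
    (a := fun c : ℕ => (c : ℝ) / M) (n := M) (fun k _ => hg _ _)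
  simp only [Nat.cast_zero, zero_div] at this
  rw [div_self hM0] at this
  rw [← this]

lemma ceil_add_of_mem {M : ℕ} (hM : 0 < M) {x : ℝ} (hx : x ∈ Ioc (0 : ℝ) (1 / M)) (c : ℕ) :
    ⌈(M : ℝ) * (x + c / M)⌉ = (c : ℤ) + 1 := by
  have hMR : (0 : ℝ) < M := by exact_mod_cast hM
  have e : (M : ℝ) * (x + c / M) = M * x + c := by field_simp
  rw [e, Int.ceil_eq_iff]
  have h1 : 0 < (M : ℝ) * x := mul_pos hMR hx.1
  have h2 : (M : ℝ) * x ≤ 1 := by
    have := mul_le_mul_of_nonneg_left hx.2 hMR.le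
    rwa [mul_one_div_cancel hMR.ne'] at this
  push_cast
  constructor <;> linarith

lemma ceil_point {M : ℕ} (hM : 0 < M) (c : ℕ) :
    ⌈(M : ℝ) * (((c : ℝ) + 1) / M)⌉ = (c : ℤ) + 1 := by
  have hMR : (0 : ℝ) < M := by exact_mod_cast hM
  have e : (M : ℝ) * (((c : ℝ) + 1) / M) = ((c + 1 : ℕ) : ℝ) := by
    push_cast; field_simp
  rw [e, Int.ceil_natCast]
  push_cast; ring

/-- A set is cell invariant at level `M` if it depends only on the cell `(c / M, (c + 1) / M]`. -/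
def CellInv (M : ℕ) (F : Set ℝ) : Prop :=
  ∀ x x' : ℝ, ⌈(M : ℝ) * x⌉ = ⌈(M : ℝ) * x'⌉ → (x ∈ F ↔ x' ∈ F)

lemma periodic_iterate {G : Set ℝ} {M : ℕ} (hG : ∀ x : ℝ, x + 1 / M ∈ G ↔ x ∈ G) (x : ℝ) (c : ℕ) :
    x + c / M ∈ G ↔ x ∈ G := by
  induction c with
  | zero => simp
  | succ n ih =>
    have e : x + ((n + 1 : ℕ) : ℝ) / M = x + n / M + 1 / M := by push_cast; ring
    rw [e, hG, ih]

/-- The count of cells in a cell-invariant set. -/
noncomputable def cellCount (M : ℕ) (F : Set ℝ) : ℝ :=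
  ∑ c ∈ range M, F.indicator (fun _ => (1 : ℝ)) (((c : ℝ) + 1) / M)

lemma integral_inter_eq {M : ℕ} (hM : 0 < M) {F G : Set ℝ} (hFm : MeasurableSet F)
    (hGm : MeasurableSet G) (hF : CellInv M F) (hG : ∀ x : ℝ, x + 1 / M ∈ G ↔ x ∈ G) :
    P.real (F ∩ G) = cellCount M F * ∫ x in (0 : ℝ)..(1 / M), G.indicator (fun _ => (1 : ℝ)) x := by
  have hMR : (0 : ℝ) < M := by exact_mod_cast hM
  have h1M : (0 : ℝ) ≤ 1 / M := by positivity
  rw [← integral_indicator_eq_P (hFm.inter hGm),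
    integral_split (fun a b => intervalIntegrable_indicator (hFm.inter hGm) a b) hM,
    cellCount, Finset.sum_mul]
  refine Finset.sum_congr rfl fun c _ => ?_
  rw [← intervalIntegral.integral_const_mul]
  rw [intervalIntegral.integral_of_le h1M, intervalIntegral.integral_of_le h1M]
  refine setIntegral_congr_fun measurableSet_Ioc fun x hx => ?_
  have hc : x + c / M ∈ F ↔ (((c : ℝ) + 1) / M) ∈ F := by
    apply hF
    rw [ceil_add_of_mem hM hx c, ceil_point hM c]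
  have hg : x + c / M ∈ G ↔ x ∈ G := periodic_iterate hG x c
  by_cases h1 : ((c : ℝ) + 1) / M ∈ F <;> by_cases h2 : x ∈ G <;>
    simp [Set.indicator, h1, h2, hc, hg]

/-- **Independence.** A cell-invariant set at level `M` and a set of period `1 / M`
are independent on the unit interval. -/
theorem indep_of_cellInv {M : ℕ} (hM : 0 < M) {F G : Set ℝ} (hFm : MeasurableSet F)
    (hGm : MeasurableSet G) (hF : CellInv M F) (hG : ∀ x : ℝ, x + 1 / M ∈ G ↔ x ∈ G) :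
    P.real (F ∩ G) = P.real F * P.real G := by
  have hMR : (0 : ℝ) < M := by exact_mod_cast hM
  have huniv : CellInv M (univ : Set ℝ) := fun _ _ _ => by simp
  have hguniv : ∀ x : ℝ, x + 1 / M ∈ (univ : Set ℝ) ↔ x ∈ (univ : Set ℝ) := fun _ => by simp
  have h1 := integral_inter_eq hM hFm hGm hF hG
  have h2 := integral_inter_eq hM MeasurableSet.univ hGm huniv hG
  have h3 := integral_inter_eq hM hFm MeasurableSet.univ hF hguniv
  have hcount : cellCount M (univ : Set ℝ) = M := by simp [cellCount]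
  have hJ : ∫ x in (0 : ℝ)..(1 / M), (univ : Set ℝ).indicator (fun _ => (1 : ℝ)) x = 1 / M := by
    simp
  rw [Set.univ_inter, hcount] at h2
  rw [Set.inter_univ, hJ] at h3
  rw [h1, h2, h3]
  field_simp

/-- The saturation of a set: the union of the cells of level `M` that meet it. -/
def sat (M : ℕ) (E : Set ℝ) : Set ℝ := {x | ∃ x' ∈ E, ⌈(M : ℝ) * x'⌉ = ⌈(M : ℝ) * x⌉}

lemma subset_sat (M : ℕ) (E : Set ℝ) : E ⊆ sat M E := fun x hx => ⟨x, hx, rfl⟩

lemma cellInv_sat (M : ℕ) (E : Set ℝ) : CellInv M (sat M E) := by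
  intro x x' h
  constructor
  · rintro ⟨z, hz, he⟩
    exact ⟨z, hz, he.trans h⟩
  · rintro ⟨z, hz, he⟩
    exact ⟨z, hz, he.trans h.symm⟩

lemma measurableSet_sat (M : ℕ) (E : Set ℝ) : MeasurableSet (sat M E) := by
  have h : sat M E = (fun x : ℝ => ⌈(M : ℝ) * x⌉) ⁻¹' {n : ℤ | ∃ x' ∈ E, ⌈(M : ℝ) * x'⌉ = n} := by
    ext x; rfl
  rw [h]
  exact (Int.measurable_ceil.comp (measurable_const_mul (M : ℝ))) (MeasurableSpace.measurableSet_top)

lemma abs_sub_lt_of_ceil_eq {M : ℕ} (hM : 0 < M) {x x' : ℝ} (h : ⌈(M : ℝ) * x'⌉ = ⌈(M : ℝ) * x⌉) :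
    |x - x'| < 1 / M := by
  have hMR : (0 : ℝ) < M := by exact_mod_cast hM
  have h1 := Int.ceil_lt_add_one ((M : ℝ) * x')
  have h2 := Int.le_ceil ((M : ℝ) * x')
  have h3 := Int.ceil_lt_add_one ((M : ℝ) * x)
  have h4 := Int.le_ceil ((M : ℝ) * x)
  rw [h] at h1 h2
  have h5 : (M : ℝ) * (x - x') < 1 := by
    have : (M : ℝ) * (x - x') = M * x - M * x' := by ring
    rw [this]; linarith
  have h6 : -1 < (M : ℝ) * (x - x') := by
    have : (M : ℝ) * (x - x') = M * x - M * x' := by ring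
    rw [this]; linarith
  rw [abs_lt]
  constructor
  · have e : -(1 / (M : ℝ)) = (-1) / M := by ring
    rw [e, div_lt_iff₀ hMR]
    linarith
  · rw [lt_div_iff₀ hMR]
    linarith

lemma sat_arc_subset {M : ℕ} (hM : 0 < M) (S : Finset ℕ) (s ρ : ℕ → ℝ) :
    sat M (⋃ q ∈ S, arc q (s q) (ρ q)) ⊆ ⋃ q ∈ S, arc q (s q) (ρ q + q / M) := by
  rintro x ⟨x', hx', he⟩
  have hd := abs_sub_lt_of_ceil_eq hM he
  simp only [Set.mem_iUnion] at hx' ⊢
  obtain ⟨q, hq, a, ha⟩ := hx'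
  refine ⟨q, hq, a, ?_⟩
  have hqR : (0 : ℝ) ≤ q := by positivity
  have e : (q : ℝ) * x - s q - a = ((q : ℝ) * x' - s q - a) + q * (x - x') := by ring
  rw [e]
  have h2 : |(q : ℝ) * (x - x')| ≤ q * (1 / M) := by
    rw [abs_mul, abs_of_nonneg hqR]
    exact mul_le_mul_of_nonneg_left hd.le hqR
  have h3 := abs_add_le ((q : ℝ) * x' - s q - a) (q * (x - x'))
  have e2 : (q : ℝ) * (1 / M) = q / M := by ring
  rw [e2] at h2
  linarith

lemma P_le_one (A : Set ℝ) : P.real A ≤ 1 := by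
  have h : P.real A ≤ P.real univ := measureReal_mono (subset_univ _)
  have h2 : P.real (univ : Set ℝ) = 1 := by simp [Measure.real]
  linarith

lemma P_arc_eq {q : ℕ} (hq : 0 < q) (s : ℝ) {ρ : ℝ} (h0 : 0 ≤ ρ) (h1 : ρ ≤ 1 / 2) :
    P.real (arc q s ρ) = 2 * ρ := by
  rw [← integral_indicator_eq_P (measurableSet_arc q s ρ), integral_arc hq s h0 h1]

lemma P_arc_le {q : ℕ} (hq : 0 < q) (s : ℝ) {ρ : ℝ} (h0 : 0 ≤ ρ) :
    P.real (arc q s ρ) ≤ 2 * ρ := by
  by_cases h1 : ρ ≤ 1 / 2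
  · exact (P_arc_eq hq s h0 h1).le
  · have := P_le_one (arc q s ρ)
    linarith [not_le.mp h1]

lemma arc_mono {q : ℕ} {s ρ ρ' : ℝ} (h : ρ ≤ ρ') : arc q s ρ ⊆ arc q s ρ' := by
  rintro x ⟨a, ha⟩
  exact ⟨a, ha.trans_le h⟩

/-- The enlarged arcs add little measure. -/
lemma P_fatten_le {M : ℕ} (hM : 0 < M) (S : Finset ℕ) (s ρ : ℕ → ℝ)
    (h : ∀ q ∈ S, 0 < q ∧ 0 ≤ ρ q ∧ ρ q ≤ 1 / 2) :
    P.real (⋃ q ∈ S, arc q (s q) (ρ q + q / M))
      ≤ P.real (⋃ q ∈ S, arc q (s q) (ρ q)) + 2 * (∑ q ∈ S, (q : ℝ)) / M := by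
  classical
  have hMR : (0 : ℝ) < M := by exact_mod_cast hM
  have hsub : (⋃ q ∈ S, arc q (s q) (ρ q + q / M))
      ⊆ (⋃ q ∈ S, arc q (s q) (ρ q)) ∪
        ⋃ q ∈ S, (arc q (s q) (ρ q + q / M) \ arc q (s q) (ρ q)) := by
    intro x hx
    simp only [Set.mem_iUnion, Set.mem_union, Set.mem_sdiff] at hx ⊢
    obtain ⟨q, hq, hx⟩ := hx
    by_cases hx2 : x ∈ arc q (s q) (ρ q)
    · exact Or.inl ⟨q, hq, hx2⟩
    · exact Or.inr ⟨q, hq, hx, hx2⟩
  have h1 := measureReal_mono (μ := P) hsub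
  have h2 := measureReal_union_le (μ := P) (⋃ q ∈ S, arc q (s q) (ρ q))
    (⋃ q ∈ S, (arc q (s q) (ρ q + q / M) \ arc q (s q) (ρ q)))
  have h3 := measureReal_biUnion_finset_le (μ := P) S
    (fun q => arc q (s q) (ρ q + q / M) \ arc q (s q) (ρ q))
  have h4 : ∑ q ∈ S, P.real (arc q (s q) (ρ q + q / M) \ arc q (s q) (ρ q))
      ≤ ∑ q ∈ S, (2 * (q : ℝ) / M) := by
    refine Finset.sum_le_sum fun q hq => ?_
    obtain ⟨hq0, hρ0, hρ1⟩ := h q hq
    have hnn : (0 : ℝ) ≤ (q : ℝ) / M := by positivity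
    rw [measureReal_sdiff (arc_mono (by linarith)) (measurableSet_arc q _ _)]
    rw [P_arc_eq hq0 _ hρ0 hρ1]
    have := P_arc_le hq0 (s q) (ρ := ρ q + q / M) (by linarith)
    have e : 2 * (q : ℝ) / M = 2 * ((q : ℝ) / M) := by ring
    rw [e]
    linarith
  have h5 : ∑ q ∈ S, (2 * (q : ℝ) / M) = 2 * (∑ q ∈ S, (q : ℝ)) / M := by
    rw [Finset.mul_sum, Finset.sum_div]
  linarith

/-- **The pair bound.** -/
theorem pair_bound {M : ℕ} (hM : 0 < M) (S : Finset ℕ) (s ρ : ℕ → ℝ)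
    (h : ∀ q ∈ S, 0 < q ∧ 0 ≤ ρ q ∧ ρ q ≤ 1 / 2) {G : Set ℝ} (hGm : MeasurableSet G)
    (hG : ∀ x : ℝ, x + 1 / M ∈ G ↔ x ∈ G) :
    P.real ((⋃ q ∈ S, arc q (s q) (ρ q)) ∩ G)
      ≤ (P.real (⋃ q ∈ S, arc q (s q) (ρ q)) + 2 * (∑ q ∈ S, (q : ℝ)) / M) * P.real G := by
  set E := ⋃ q ∈ S, arc q (s q) (ρ q) with hE
  have h1 : P.real (E ∩ G) ≤ P.real (sat M E ∩ G) :=
    measureReal_mono (Set.inter_subset_inter_left _ (subset_sat M E))
  have h2 := indep_of_cellInv hM (measurableSet_sat M E) hGm (cellInv_sat M E) hG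
  have h3 : P.real (sat M E) ≤ P.real (⋃ q ∈ S, arc q (s q) (ρ q + q / M)) :=
    measureReal_mono (sat_arc_subset hM S s ρ) (measure_ne_top _ _)
  have h4 := P_fatten_le hM S s ρ h
  rw [h2] at h1
  refine h1.trans (mul_le_mul_of_nonneg_right ?_ measureReal_nonneg)
  exact h3.trans h4

end Vale.Agent.Lib.P028
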