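import Vale.Agent.Lib.P028.Indep

/-!
The second moment argument and the full measure block theorem.
-/

namespace Vale.Agent.Lib.P028

open Finset MeasureTheory Set Filter

/-- The double sum bound. -/
lemma double_sum_le (K : Finset ℕ) (E : ℕ → Set ℝ) (b : ℕ → ℕ → ℝ) {C : ℝ}
    (hpair : ∀ j k, j < k → P.real (E j ∩ E k) ≤ (P.real (E j) + b j k) * P.real (E k))
    (hb : ∀ j k, 0 ≤ b j k) (hbsum : ∀ k, ∑ j ∈ range k, b j k ≤ C) :
    ∑ j ∈ K, ∑ k ∈ K, P.real (E j ∩ E k)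
      ≤ (∑ k ∈ K, P.real (E k)) ^ 2 + (1 + 2 * C) * ∑ k ∈ K, P.real (E k) := by
  classical
  set m : ℕ → ℝ := fun k => P.real (E k) with hm
  have hm0 : ∀ k, 0 ≤ m k := fun k => measureReal_nonneg
  set T := ∑ k ∈ K, m k with hT
  have hT0 : 0 ≤ T := Finset.sum_nonneg fun k _ => hm0 k
  let e1 : ℕ → ℕ → ℝ := fun j k => if j = k then m j else 0
  let e2 : ℕ → ℕ → ℝ := fun j k => if j < k then b j k * m k else 0
  let e3 : ℕ → ℕ → ℝ := fun j k => if k < j then b k j * m j else 0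
  have hpt : ∀ j k, P.real (E j ∩ E k) ≤ m j * m k + e1 j k + e2 j k + e3 j k := by
    intro j k
    rcases lt_trichotomy j k with h | h | h
    · have := hpair j k h
      simp only [e1, e2, e3, if_neg h.ne, if_pos h, if_neg h.not_gt]
      simp only [hm]
      nlinarith
    · subst h
      simp only [e1, e2, e3, if_true, if_neg (lt_irrefl j), Set.inter_self]
      simp only [hm]
      nlinarith [hm0 j, mul_nonneg (hm0 j) (hm0 j)]
    · have := hpair k j h
      simp only [e1, e2, e3, if_neg h.ne', if_neg h.not_gt, if_pos h]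
      rw [Set.inter_comm]
      simp only [hm]
      nlinarith
  have h1 : ∑ j ∈ K, ∑ k ∈ K, m j * m k = T ^ 2 := by
    rw [sq, hT, Finset.sum_mul_sum]
  have h2 : ∑ j ∈ K, ∑ k ∈ K, e1 j k = T := by
    refine Finset.sum_congr rfl fun j hj => ?_
    simp [e1, hj]
  have h3 : ∑ j ∈ K, ∑ k ∈ K, e2 j k ≤ C * T := by
    rw [Finset.sum_comm]
    have : ∀ k ∈ K, ∑ j ∈ K, e2 j k ≤ C * m k := by
      intro k _
      have h4 : ∑ j ∈ K, e2 j k = ∑ j ∈ K.filter (· < k), b j k * m k := by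
        rw [Finset.sum_filter]
      rw [h4, ← Finset.sum_mul]
      refine mul_le_mul_of_nonneg_right ?_ (hm0 k)
      refine le_trans ?_ (hbsum k)
      refine Finset.sum_le_sum_of_subset_of_nonneg ?_ fun j _ _ => hb j k
      intro j hj
      exact Finset.mem_range.mpr (Finset.mem_filter.mp hj).2
    calc ∑ k ∈ K, ∑ j ∈ K, e2 j k ≤ ∑ k ∈ K, C * m k := Finset.sum_le_sum this
      _ = C * T := by rw [hT, Finset.mul_sum]
  have h3' : ∑ j ∈ K, ∑ k ∈ K, e3 j k = ∑ j ∈ K, ∑ k ∈ K, e2 j k := by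
    rw [Finset.sum_comm]
  calc ∑ j ∈ K, ∑ k ∈ K, P.real (E j ∩ E k)
      ≤ ∑ j ∈ K, ∑ k ∈ K, (m j * m k + e1 j k + e2 j k + e3 j k) :=
        Finset.sum_le_sum fun j _ => Finset.sum_le_sum fun k _ => hpt j k
    _ = ∑ j ∈ K, ∑ k ∈ K, m j * m k + ∑ j ∈ K, ∑ k ∈ K, e1 j k + ∑ j ∈ K, ∑ k ∈ K, e2 j k
          + ∑ j ∈ K, ∑ k ∈ K, e3 j k := by
        simp only [Finset.sum_add_distrib]
    _ ≤ T ^ 2 + (1 + 2 * C) * T := by
        rw [h1, h2, h3']
        nlinarith [h3]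

/-- Almost every point of the unit interval is in infinitely many of the sets. -/
theorem ae_frequently_mem (E : ℕ → Set ℝ) (hE : ∀ k, MeasurableSet (E k)) (b : ℕ → ℕ → ℝ) {C : ℝ}
    (hpair : ∀ j k, j < k → P.real (E j ∩ E k) ≤ (P.real (E j) + b j k) * P.real (E k))
    (hb : ∀ j k, 0 ≤ b j k) (hbsum : ∀ k, ∑ j ∈ range k, b j k ≤ C)
    (hdiv : ¬ Summable fun k => P.real (E k)) :
    ∀ᵐ x ∂P, ∀ n : ℕ, ∃ k, n ≤ k ∧ x ∈ E k := by
  have hC : 0 ≤ C := by
    have := hbsum 0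
    simpa using this
  have hP1 : P.real (univ : Set ℝ) = 1 := by simp [Measure.real]
  rw [ae_all_iff]
  intro n
  set V : Set ℝ := ⋃ k, ⋃ (_ : n ≤ k), E k with hV
  have hVm : MeasurableSet V :=
    MeasurableSet.iUnion fun k => MeasurableSet.iUnion fun _ => hE k
  have hmem : ∀ x, x ∈ V ↔ ∃ k, n ≤ k ∧ x ∈ E k := by
    intro x
    simp [hV]
  -- the partial sums tend to infinity
  have hnn : ∀ k, 0 ≤ P.real (E k) := fun k => measureReal_nonneg
  have ht := (not_summable_iff_tendsto_nat_atTop_of_nonneg hnn).mp hdiv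
  have hlower : ∀ N, n ≤ N → (∑ k ∈ Finset.Ico n N, P.real (E k)) ^ 2
      ≤ P.real V * ((∑ k ∈ Finset.Ico n N, P.real (E k)) ^ 2
          + (1 + 2 * C) * ∑ k ∈ Finset.Ico n N, P.real (E k)) := by
    intro N _
    set T := ∑ k ∈ Finset.Ico n N, P.real (E k) with hT
    have h1 := chung_erdos (μ := P) (Finset.Ico n N) E (fun k _ => hE k)
    have h2 := double_sum_le (Finset.Ico n N) E b hpair hb hbsum
    have hsub : (⋃ k ∈ Finset.Ico n N, E k) ⊆ V := by
      intro x hx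
      simp only [Set.mem_iUnion, Finset.mem_Ico] at hx
      obtain ⟨k, hk, hx⟩ := hx
      exact (hmem x).mpr ⟨k, hk.1, hx⟩
    have h3 : P.real (⋃ k ∈ Finset.Ico n N, E k) ≤ P.real V :=
      measureReal_mono hsub (measure_ne_top _ _)
    have h4 : 0 ≤ P.real (⋃ k ∈ Finset.Ico n N, E k) := measureReal_nonneg
    have h5 : 0 ≤ T ^ 2 + (1 + 2 * C) * T := by
      have : 0 ≤ T := Finset.sum_nonneg fun k _ => hnn k
      positivity
    calc T ^ 2 ≤ P.real (⋃ k ∈ Finset.Ico n N, E k) *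
          ∑ j ∈ Finset.Ico n N, ∑ k ∈ Finset.Ico n N, P.real (E j ∩ E k) := h1
      _ ≤ P.real (⋃ k ∈ Finset.Ico n N, E k) * (T ^ 2 + (1 + 2 * C) * T) :=
          mul_le_mul_of_nonneg_left h2 h4
      _ ≤ P.real V * (T ^ 2 + (1 + 2 * C) * T) := mul_le_mul_of_nonneg_right h3 h5
  -- so the measure of the tail union is one
  have hV1 : 1 ≤ P.real V := by
    by_contra hlt
    push Not at hlt
    set δ := 1 - P.real V with hδ
    have hδ0 : 0 < δ := by linarith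
    have hbig : ∃ N, n ≤ N ∧
        (1 + 2 * C) / δ + 1 + ∑ k ∈ Finset.range n, P.real (E k)
          ≤ ∑ k ∈ Finset.range N, P.real (E k) := by
      have := (ht.eventually_ge_atTop
        ((1 + 2 * C) / δ + 1 + ∑ k ∈ Finset.range n, P.real (E k))).and (eventually_ge_atTop n)
      obtain ⟨N, h1, h2⟩ := this.exists
      exact ⟨N, h2, h1⟩
    obtain ⟨N, hN, hsum⟩ := hbig
    have hIco : ∑ k ∈ Finset.Ico n N, P.real (E k)
        = ∑ k ∈ Finset.range N, P.real (E k) - ∑ k ∈ Finset.range n, P.real (E k) :=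
      Finset.sum_Ico_eq_sub _ hN
    have hl := hlower N hN
    set T := ∑ k ∈ Finset.Ico n N, P.real (E k) with hT
    have hTbig : (1 + 2 * C) / δ + 1 ≤ T := by rw [hIco]; linarith
    have hq : 0 ≤ (1 + 2 * C) / δ := by positivity
    have hTpos : 0 < T := by linarith
    have hdT : 1 + 2 * C < δ * T := by
      have : (1 + 2 * C) / δ < T := by linarith
      rw [div_lt_iff₀ hδ0] at this
      linarith
    have hPV : P.real V = 1 - δ := by rw [hδ]; ring
    rw [hPV] at hl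
    have hPV0 : 0 ≤ P.real V := measureReal_nonneg
    have hle1 : 1 - δ ≤ 1 := by linarith
    have h6 : (1 - δ) * ((1 + 2 * C) * T) ≤ 1 * ((1 + 2 * C) * T) :=
      mul_le_mul_of_nonneg_right hle1 (by positivity)
    nlinarith [mul_pos hTpos hTpos, mul_lt_mul_of_pos_right hdT hTpos]
  have hnull : P Vᶜ = 0 := by
    have h := measureReal_compl (μ := P) hVm
    have h0 : P.real Vᶜ ≤ 0 := by
      rw [h, hP1]; linarith
    have h1 : P.real Vᶜ = 0 := le_antisymm h0 measureReal_nonneg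
    rwa [measureReal_eq_zero_iff (measure_ne_top _ _)] at h1
  have hae : ∀ᵐ x ∂P, x ∈ V := by
    rw [ae_iff]
    exact hnull
  filter_upwards [hae] with x hx
  exact (hmem x).mp hx

/-- From the unit interval to the whole line. -/
theorem ae_of_ae_unit {W : Set ℝ} (hW : ∀ (n : ℤ) (x : ℝ), x + n ∈ W ↔ x ∈ W)
    (h : ∀ᵐ x ∂P, x ∈ W) : ∀ᵐ x : ℝ, x ∈ W := by
  have h0 : volume (Wᶜ ∩ Ioc (0 : ℝ) 1) = 0 := by
    have h1 : P Wᶜ = 0 := by
      rw [ae_iff] at h
      exact h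
    rwa [Measure.restrict_apply' measurableSet_Ioc] at h1
  have hn : ∀ n : ℤ, volume (Wᶜ ∩ Ioc (n : ℝ) (n + 1)) = 0 := by
    intro n
    have hpre : (fun x : ℝ => x + n) ⁻¹' (Wᶜ ∩ Ioc (n : ℝ) (n + 1)) = Wᶜ ∩ Ioc (0 : ℝ) 1 := by
      ext x
      simp only [Set.mem_preimage, Set.mem_inter_iff, Set.mem_compl_iff, Set.mem_Ioc, hW n x]
      constructor
      · rintro ⟨h1, h2, h3⟩
        exact ⟨h1, by linarith, by linarith⟩
      · rintro ⟨h1, h2, h3⟩
        exact ⟨h1, by linarith, by linarith⟩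
    rw [← measure_preimage_add_right volume (n : ℝ), hpre, h0]
  rw [ae_iff]
  have hcover : {x : ℝ | x ∉ W} ⊆ ⋃ n : ℤ, (Wᶜ ∩ Ioc (n : ℝ) (n + 1)) := by
    intro x hx
    have hx' : x ∈ ⋃ n : ℤ, Ioc (n : ℝ) ((n : ℝ) + 1) := by
      rw [iUnion_Ioc_intCast]
      trivial
    obtain ⟨n, hn'⟩ := Set.mem_iUnion.mp hx'
    exact Set.mem_iUnion.mpr ⟨n, hx, hn'⟩
  exact measure_mono_null hcover (measure_iUnion_null hn)

/-- **The block theorem.** -/
theorem block_theorem (ψ y : ℕ → ℝ) (hψ : ∀ q, 0 ≤ ψ q) (L N : ℕ → ℕ) (S : ℕ → Finset ℕ) (C : ℕ)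
    (hL : ∀ k, 0 < L k) (hN : ∀ k, 0 < N k) (hS : ∀ k, ∀ q ∈ S k, L k ∣ q ∧ q ∣ N k)
    (hgrow : ∀ k, ∑ j ∈ Finset.range k, ∑ q ∈ S j, q ≤ C * L k)
    (hdiv : ¬ Summable fun k => ∑ q ∈ S k,
      ((Nat.totient (q / L k) : ℝ) / ((q / L k : ℕ) : ℝ)) * min (ψ q) ((q : ℝ) / (2 * N k))) :
    ∀ᵐ x : ℝ, ∃ᶠ q : ℕ in atTop, ∃ a : ℤ, |(q : ℝ) * x - y q - a| < ψ q := by
  classical
  -- notation
  let ρ : ℕ → ℕ → ℝ := fun k q => min (ψ q) ((q : ℝ) / (2 * N k))
  let E : ℕ → Set ℝ := fun k => ⋃ q ∈ S k, arc q (y q) (ρ k q)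
  have hEm : ∀ k, MeasurableSet (E k) := fun k => measurableSet_biUnion_arc _ _ _
  have hNR : ∀ k, (0 : ℝ) < N k := fun k => by exact_mod_cast hN k
  have hLR : ∀ k, (0 : ℝ) < L k := fun k => by exact_mod_cast hL k
  have hqpos : ∀ k, ∀ q ∈ S k, 0 < q := fun k q hq =>
    Nat.pos_of_dvd_of_pos (hS k q hq).2 (hN k)
  have hρ0 : ∀ k q, 0 ≤ ρ k q := fun k q => le_min (hψ q) (by have := hNR k; positivity)
  have hρ2 : ∀ k q, 2 * ρ k q * N k ≤ q := by
    intro k q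
    have h1 : ρ k q ≤ (q : ℝ) / (2 * N k) := min_le_right _ _
    have h2 := hNR k
    have h3 : 2 * ρ k q * N k ≤ 2 * ((q : ℝ) / (2 * N k)) * N k := by gcongr
    have h4 : 2 * ((q : ℝ) / (2 * N k)) * N k = q := by field_simp
    linarith
  have hρ1 : ∀ k, ∀ q ∈ S k, ρ k q ≤ 1 / 2 := by
    intro k q hq
    have h1 : (q : ℝ) ≤ N k := by exact_mod_cast Nat.le_of_dvd (hN k) (hS k q hq).2
    have h2 := hρ2 k q
    have h3 := hNR k
    have h4 : 2 * ρ k q * N k ≤ 1 * N k := by linarith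
    have h5 := le_of_mul_le_mul_right h4 h3
    linarith
  -- the block bound
  have hblock : ∀ k, ∑ q ∈ S k, ((Nat.totient (q / L k) : ℝ) / ((q / L k : ℕ) : ℝ)) * (2 * ρ k q)
      ≤ P.real (E k) := by
    intro k
    have := block_bound (L := L k) (N := N k) (S := S k) (s := y) (ρ := ρ k) (hL k) (hN k)
      (fun q hq => ⟨hqpos k q hq, (hS k q hq).1, (hS k q hq).2, hρ0 k q, hρ2 k q⟩)
    rw [P_real_eq (hEm k)]
    exact this
  let w : ℕ → ℝ := fun k => ∑ q ∈ S k,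
    ((Nat.totient (q / L k) : ℝ) / ((q / L k : ℕ) : ℝ)) * min (ψ q) ((q : ℝ) / (2 * N k))
  have hw0 : ∀ k, 0 ≤ w k := fun k => Finset.sum_nonneg fun q _ =>
    mul_nonneg (by positivity) (hρ0 k q)
  have hwle : ∀ k, w k ≤ P.real (E k) := by
    intro k
    refine le_trans ?_ (hblock k)
    refine Finset.sum_le_sum fun q _ => ?_
    have h1 : (0 : ℝ) ≤ (Nat.totient (q / L k) : ℝ) / ((q / L k : ℕ) : ℝ) := by positivity
    have h2 := hρ0 k q
    show _ * ρ k q ≤ _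
    nlinarith [mul_nonneg h1 h2]
  have hdivm : ¬ Summable fun k => P.real (E k) := fun h =>
    hdiv (Summable.of_nonneg_of_le hw0 hwle h)
  -- the moduli sums
  let a : ℕ → ℝ := fun j => ∑ q ∈ S j, (q : ℝ)
  have ha0 : ∀ j, 0 ≤ a j := fun j => Finset.sum_nonneg fun q _ => by positivity
  have hwa : ∀ k, w k ≤ a k := by
    intro k
    refine Finset.sum_le_sum fun q hq => ?_
    have hq0 := hqpos k q hq
    have hq1 : (1 : ℝ) ≤ q := by exact_mod_cast hq0
    have hm : 0 < q / L k := Nat.div_pos (Nat.le_of_dvd hq0 (hS k q hq).1) (hL k)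
    have hmR : (0 : ℝ) < ((q / L k : ℕ) : ℝ) := by exact_mod_cast hm
    have ht : (Nat.totient (q / L k) : ℝ) / ((q / L k : ℕ) : ℝ) ≤ 1 := by
      rw [div_le_one hmR]
      exact_mod_cast Nat.totient_le _
    have h1 := hρ1 k q hq
    have h2 := hρ0 k q
    have h3 : (0 : ℝ) ≤ (Nat.totient (q / L k) : ℝ) / ((q / L k : ℕ) : ℝ) := by positivity
    show _ * ρ k q ≤ _
    nlinarith [mul_le_mul ht h1 h2 (by norm_num : (0 : ℝ) ≤ 1)]
  have hdiva : ¬ Summable a := fun h => hdiv (Summable.of_nonneg_of_le hw0 hwa h)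
  have htop := (not_summable_iff_tendsto_nat_atTop_of_nonneg ha0).mp hdiva
  -- the pair bound
  let b : ℕ → ℕ → ℝ := fun j k => 2 * a j / L k
  have hb : ∀ j k, 0 ≤ b j k := fun j k => by
    have := ha0 j
    have := hLR k
    positivity
  have hgrowR : ∀ k, ∑ j ∈ Finset.range k, a j ≤ C * L k := by
    intro k
    have := hgrow k
    have h2 : ((∑ j ∈ Finset.range k, ∑ q ∈ S j, q : ℕ) : ℝ) ≤ ((C * L k : ℕ) : ℝ) := by
      exact_mod_cast this
    push_cast at h2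
    exact h2
  have hbsum : ∀ k, ∑ j ∈ Finset.range k, b j k ≤ 2 * C := by
    intro k
    have h1 : ∑ j ∈ Finset.range k, b j k = 2 * (∑ j ∈ Finset.range k, a j) / L k := by
      rw [Finset.mul_sum, Finset.sum_div]
    rw [h1, div_le_iff₀ (hLR k)]
    have := hgrowR k
    linarith
  have hpair : ∀ j k, j < k → P.real (E j ∩ E k) ≤ (P.real (E j) + b j k) * P.real (E k) := by
    intro j k _
    have hper : ∀ x : ℝ, x + 1 / (L k : ℝ) ∈ E k ↔ x ∈ E k := by
      intro x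
      simp only [E, Set.mem_iUnion]
      refine exists_congr fun q => exists_congr fun hq => ?_
      obtain ⟨m, hm⟩ := (hS k q hq).1
      have hm' : (q : ℝ) * (1 / (L k : ℝ)) = ((m : ℤ) : ℝ) := by
        have h0 := (hLR k).ne'
        rw [hm]
        push_cast
        field_simp
      exact add_mem_arc_iff hm'
    exact pair_bound (hL k) (S j) y (ρ j)
      (fun q hq => ⟨hqpos j q hq, hρ0 j q, hρ1 j q hq⟩) (hEm k) hper
  have hae := ae_frequently_mem E hEm b hpair hb hbsum hdivm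
  -- the set of good points
  let W : Set ℝ := {x | ∃ᶠ q : ℕ in atTop, ∃ a : ℤ, |(q : ℝ) * x - y q - a| < ψ q}
  have hW : ∀ (n : ℤ) (x : ℝ), x + n ∈ W ↔ x ∈ W := by
    intro n x
    have hiff : ∀ q : ℕ, (∃ a : ℤ, |(q : ℝ) * (x + n) - y q - a| < ψ q)
        ↔ ∃ a : ℤ, |(q : ℝ) * x - y q - a| < ψ q := by
      intro q
      constructor
      · rintro ⟨c, hc⟩
        refine ⟨c - q * n, ?_⟩
        have e : (q : ℝ) * x - y q - ((c - q * n : ℤ) : ℝ) = (q : ℝ) * (x + n) - y q - c := by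
          push_cast; ring
        rwa [e]
      · rintro ⟨c, hc⟩
        refine ⟨c + q * n, ?_⟩
        have e : (q : ℝ) * (x + n) - y q - ((c + q * n : ℤ) : ℝ) = (q : ℝ) * x - y q - c := by
          push_cast; ring
        rwa [e]
    simp only [W, Set.mem_ofPred_eq, hiff]
  have hfinal : ∀ᵐ x ∂P, x ∈ W := by
    filter_upwards [hae] with x hx
    show ∃ᶠ q : ℕ in atTop, ∃ a : ℤ, |(q : ℝ) * x - y q - a| < ψ q
    rw [Filter.frequently_atTop]
    intro B
    obtain ⟨n, hn⟩ := (htop.eventually_gt_atTop ((C : ℝ) * B)).exists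
    obtain ⟨k, hnk, hxk⟩ := hx n
    simp only [E, Set.mem_iUnion] at hxk
    obtain ⟨q, hq, c, hc⟩ := hxk
    refine ⟨q, ?_, c, hc.trans_le (min_le_left _ _)⟩
    have h1 : ∑ j ∈ Finset.range n, a j ≤ ∑ j ∈ Finset.range k, a j :=
      Finset.sum_le_sum_of_subset_of_nonneg (Finset.range_mono hnk) fun j _ _ => ha0 j
    have h2 := hgrowR k
    have h3 : (L k : ℝ) ≤ q := by
      exact_mod_cast Nat.le_of_dvd (hqpos k q hq) (hS k q hq).1
    have h4 : (C : ℝ) * L k ≤ C * q := by gcongr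
    have h5 : (C : ℝ) * B < C * q := by linarith
    have hC0 : (0 : ℝ) ≤ C := by positivity
    have h6 : (B : ℝ) < q := lt_of_mul_lt_mul_left h5 hC0
    exact_mod_cast h6.le
  exact ae_of_ae_unit hW hfinal

end Vale.Agent.Lib.P028
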