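import Mathlib

/-!
Rogers type lower bound for a union of residue classes.

For a positive integer `N`, a set `D` of divisors of `N` and arbitrary residues `a d`, the
number of `x` in `range N` lying in some class `a d` mod `d` is at least the sum over `d` in `D`
of `φ (N / d)`.
-/

namespace Vale.Agent.Lib.P028

open Finset

open scoped Classical in
/-- The elements of `range N` that lie in the class of `a d` modulo `d` for some `d` in `D`. -/
noncomputable def cosetUnion (N : ℕ) (D : Finset ℕ) (a : ℕ → ℤ) : Finset ℕ :=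
  (range N).filter (fun x => ∃ d ∈ D, (d : ℤ) ∣ (x : ℤ) - a d)

lemma mem_cosetUnion {N : ℕ} {D : Finset ℕ} {a : ℕ → ℤ} {x : ℕ} :
    x ∈ cosetUnion N D a ↔ x < N ∧ ∃ d ∈ D, (d : ℤ) ∣ (x : ℤ) - a d := by
  classical
  simp [cosetUnion]

lemma exists_lt_dvd_add_mul {p t : ℕ} (hp : 0 < p) (h : Nat.Coprime t p) (m : ℤ) :
    ∃ k : ℕ, k < p ∧ (p : ℤ) ∣ m + t * k := by
  have hc : IsCoprime (t : ℤ) (p : ℤ) := Nat.isCoprime_iff_coprime.mpr h
  obtain ⟨u, v, huv⟩ := hc
  have hp' : (0 : ℤ) < p := by exact_mod_cast hp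
  set k0 : ℤ := (-m * u) % p with hk0
  have hk0nn : 0 ≤ k0 := Int.emod_nonneg _ hp'.ne'
  have hk0lt : k0 < p := Int.emod_lt_of_pos _ hp'
  refine ⟨k0.toNat, ?_, ?_⟩
  · have : (k0.toNat : ℤ) < p := by rw [Int.toNat_of_nonneg hk0nn]; exact hk0lt
    exact_mod_cast this
  · rw [Int.toNat_of_nonneg hk0nn]
    have hf : k0 = (-m * u) - p * ((-m * u) / p) := by
      have := Int.emod_add_mul_ediv (-m * u) (p : ℤ)
      rw [hk0]; linarith
    set f : ℤ := (-m * u) / p with hfdef
    have hone : (1 : ℤ) = u * t + v * p := huv.symm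
    have : m + t * k0 = p * (m * v - t * f) := by
      rw [hf]
      calc m + t * (-m * u - p * f) = m * 1 - m * (u * t) - t * p * f := by ring
        _ = m * (u * t + v * p) - m * (u * t) - t * p * f := by rw [← hone]
        _ = p * (m * v - t * f) := by ring
    exact ⟨_, this⟩

/-- The CRT step: a residue class modulo `d / p` lifts along the fibre over `N'`. -/
lemma exists_lift {p N' d y : ℕ} {b : ℤ} (hp : p.Prime) (hd : d ∣ p * N') (hnd : ¬ d ∣ N')
    (hy : ((d / p : ℕ) : ℤ) ∣ (y : ℤ) - b) :
    ∃ k : ℕ, k < p ∧ (d : ℤ) ∣ ((y + N' * k : ℕ) : ℤ) - b := by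
  have hpd : p ∣ d := by
    by_contra hpd
    have hc : Nat.Coprime d p := ((Nat.Prime.coprime_iff_not_dvd hp).mpr hpd).symm
    exact hnd (hc.dvd_of_dvd_mul_left hd)
  obtain ⟨e, rfl⟩ := hpd
  have hp0 : 0 < p := hp.pos
  have he : p * e / p = e := Nat.mul_div_cancel_left e hp0
  rw [he] at hy
  have heN : e ∣ N' := (Nat.mul_dvd_mul_iff_left hp0).mp hd
  obtain ⟨t, rfl⟩ := heN
  have hpt : ¬ p ∣ t := by
    intro hpt
    apply hnd
    obtain ⟨s, rfl⟩ := hpt
    exact ⟨s, by ring⟩
  have hc : Nat.Coprime t p := ((Nat.Prime.coprime_iff_not_dvd hp).mpr hpt).symm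
  obtain ⟨m, hm⟩ := hy
  obtain ⟨k, hk, n, hn⟩ := exists_lt_dvd_add_mul hp0 hc m
  refine ⟨k, hk, n, ?_⟩
  push_cast
  have hy' : (y : ℤ) = b + e * m := by linarith
  rw [hy']
  calc b + e * m + e * t * k - b = e * (m + t * k) := by ring
    _ = e * (p * n) := by rw [hn]
    _ = p * e * n := by ring

section Step

variable {p N' : ℕ} (D : Finset ℕ) (a : ℕ → ℤ)

open scoped Classical in
/-- The elements of `D` dividing `N'`. -/
noncomputable def lowPart (N' : ℕ) (D : Finset ℕ) : Finset ℕ := D.filter (fun d => d ∣ N')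

open scoped Classical in
/-- The elements of `D` not dividing `N'`. -/
noncomputable def highPart (N' : ℕ) (D : Finset ℕ) : Finset ℕ := D.filter (fun d => ¬ d ∣ N')

open scoped Classical in
/-- The divisors of `N'` obtained from `D`. -/
noncomputable def downSet (p N' : ℕ) (D : Finset ℕ) : Finset ℕ :=
  lowPart N' D ∪ (highPart N' D).image (fun d => d / p)

open scoped Classical in
/-- The residues of the reduced system. -/
noncomputable def downRes (p N' : ℕ) (D : Finset ℕ) (a : ℕ → ℤ) : ℕ → ℤ :=
  fun d' => if d' ∈ lowPart N' D then a d' else a (p * d')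

lemma low_subset_union :
    cosetUnion N' (lowPart N' D) a ⊆ cosetUnion N' (downSet p N' D) (downRes p N' D a) := by
  intro x hx
  rw [mem_cosetUnion] at hx ⊢
  obtain ⟨hxN, d, hd, hdvd⟩ := hx
  refine ⟨hxN, d, ?_, ?_⟩
  · classical
    exact Finset.mem_union_left _ hd
  · simpa [downRes, hd] using hdvd

/-- The main count on the fibres of reduction modulo `N'`. -/
lemma card_step (hp : p.Prime) (hN' : 0 < N') (hD : ∀ d ∈ D, d ∣ p * N') :
    p * (cosetUnion N' (lowPart N' D) a).card +
      ((cosetUnion N' (downSet p N' D) (downRes p N' D a)) \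
        (cosetUnion N' (lowPart N' D) a)).card
      ≤ (cosetUnion (p * N') D a).card := by
  classical
  set U := cosetUnion (p * N') D a with hU
  set Y1 := cosetUnion N' (lowPart N' D) a with hY1
  set Y2 := cosetUnion N' (downSet p N' D) (downRes p N' D a) with hY2
  have hp0 : 0 < p := hp.pos
  -- the fibre map
  have hmaps : ∀ x ∈ U, x % N' ∈ range N' := fun x _ => mem_range.mpr (Nat.mod_lt _ hN')
  have hfib := Finset.card_eq_sum_card_fiberwise hmaps
  -- lower bounds on the fibres
  have hlow : ∀ y ∈ Y1, p ≤ (U.filter (fun x => x % N' = y)).card := by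
    intro y hy
    have hy' := mem_cosetUnion.mp hy
    obtain ⟨hyN, d, hd, hdvd⟩ := hy'
    have hdlow : d ∈ D ∧ d ∣ N' := by simpa [lowPart] using hd
    have hinj : Set.InjOn (fun k : ℕ => y + N' * k) (range p : Set ℕ) := by
      intro k _ k' _ h
      have : N' * k = N' * k' := by simpa using h
      exact Nat.eq_of_mul_eq_mul_left hN' this
    have hcard : ((range p).image (fun k : ℕ => y + N' * k)).card = p := by
      rw [Finset.card_image_of_injOn hinj, card_range]
    rw [← hcard]
    apply Finset.card_le_card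
    intro x hx
    obtain ⟨k, hk, rfl⟩ := Finset.mem_image.mp hx
    have hk' : k < p := mem_range.mp hk
    refine mem_filter.mpr ⟨?_, ?_⟩
    · refine mem_cosetUnion.mpr ⟨?_, d, hdlow.1, ?_⟩
      · calc y + N' * k < N' + N' * k := by omega
          _ = N' * (k + 1) := by ring
          _ ≤ N' * p := Nat.mul_le_mul_left _ hk'
          _ = p * N' := by ring
      · have hdN : (d : ℤ) ∣ (N' : ℤ) := by exact_mod_cast hdlow.2
        have : ((y + N' * k : ℕ) : ℤ) - a d = ((y : ℤ) - a d) + N' * k := by push_cast; ring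
        rw [this]
        exact dvd_add hdvd (Dvd.dvd.mul_right hdN _)
    · rw [Nat.add_mul_mod_self_left, Nat.mod_eq_of_lt hyN]
  have hhigh : ∀ y ∈ Y2 \ Y1, 1 ≤ (U.filter (fun x => x % N' = y)).card := by
    intro y hy
    obtain ⟨hy2, hy1⟩ := Finset.mem_sdiff.mp hy
    obtain ⟨hyN, d', hd', hdvd⟩ := mem_cosetUnion.mp hy2
    have hd'low : d' ∉ lowPart N' D := by
      intro h
      apply hy1
      refine mem_cosetUnion.mpr ⟨hyN, d', h, ?_⟩
      simpa [downRes, h] using hdvd
    have hmem := Finset.mem_union.mp hd'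
    have himg : d' ∈ (highPart N' D).image (fun d => d / p) := by
      rcases hmem with h | h
      · exact absurd h hd'low
      · exact h
    obtain ⟨d, hd, rfl⟩ := Finset.mem_image.mp himg
    have hd2 : d ∈ D ∧ ¬ d ∣ N' := by simpa [highPart] using hd
    have hpd : p ∣ d := by
      by_contra hpd
      have hc : Nat.Coprime d p := ((Nat.Prime.coprime_iff_not_dvd hp).mpr hpd).symm
      exact hd2.2 (hc.dvd_of_dvd_mul_left (hD d hd2.1))
    have hres : downRes p N' D a (d / p) = a d := by
      simp only [downRes, if_neg hd'low]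
      rw [Nat.mul_div_cancel' hpd]
    rw [hres] at hdvd
    obtain ⟨k, hk, hdk⟩ := exists_lift hp (hD d hd2.1) hd2.2 hdvd
    refine Finset.card_pos.mpr ⟨y + N' * k, mem_filter.mpr ⟨?_, ?_⟩⟩
    · refine mem_cosetUnion.mpr ⟨?_, d, hd2.1, hdk⟩
      calc y + N' * k < N' + N' * k := by omega
        _ = N' * (k + 1) := by ring
        _ ≤ N' * p := Nat.mul_le_mul_left _ hk
        _ = p * N' := by ring
    · rw [Nat.add_mul_mod_self_left, Nat.mod_eq_of_lt hyN]
  -- assemble
  have hdisj : Disjoint Y1 (Y2 \ Y1) := Finset.disjoint_sdiff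
  have hsub : Y1 ∪ (Y2 \ Y1) ⊆ range N' := by
    intro y hy
    rcases Finset.mem_union.mp hy with h | h
    · exact mem_range.mpr (mem_cosetUnion.mp h).1
    · exact mem_range.mpr (mem_cosetUnion.mp (Finset.mem_sdiff.mp h).1).1
  calc p * Y1.card + (Y2 \ Y1).card
      = ∑ _y ∈ Y1, p + ∑ _y ∈ Y2 \ Y1, 1 := by simp [mul_comm]
    _ ≤ ∑ y ∈ Y1, (U.filter (fun x => x % N' = y)).card
        + ∑ y ∈ Y2 \ Y1, (U.filter (fun x => x % N' = y)).card :=
        add_le_add (Finset.sum_le_sum hlow) (Finset.sum_le_sum hhigh)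
    _ = ∑ y ∈ Y1 ∪ (Y2 \ Y1), (U.filter (fun x => x % N' = y)).card :=
        (Finset.sum_union hdisj).symm
    _ ≤ ∑ y ∈ range N', (U.filter (fun x => x % N' = y)).card :=
        Finset.sum_le_sum_of_subset hsub
    _ = U.card := hfib.symm

/-- The bookkeeping of totients. -/
lemma totient_step (hp : p.Prime) (hD : ∀ d ∈ D, d ∣ p * N') :
    ∑ d ∈ D, Nat.totient (p * N' / d)
      ≤ (p - 1) * ∑ d ∈ lowPart N' D, Nat.totient (N' / d)
        + ∑ d ∈ downSet p N' D, Nat.totient (N' / d) := by
  classical
  have hp0 : 0 < p := hp.pos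
  set A := (lowPart N' D).filter (fun d => p ∣ N' / d) with hA
  -- split D
  have hsplit : ∑ d ∈ D, Nat.totient (p * N' / d)
      = ∑ d ∈ lowPart N' D, Nat.totient (p * N' / d)
        + ∑ d ∈ highPart N' D, Nat.totient (p * N' / d) := by
    simpa [lowPart, highPart] using
      (Finset.sum_filter_add_sum_filter_not D (fun d => d ∣ N')
        (fun d => Nat.totient (p * N' / d))).symm
  -- low part
  have hlow : ∑ d ∈ lowPart N' D, Nat.totient (p * N' / d)
      ≤ (p - 1) * ∑ d ∈ lowPart N' D, Nat.totient (N' / d)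
        + ∑ d ∈ A, Nat.totient (N' / d) := by
    have hterm : ∀ d ∈ lowPart N' D, Nat.totient (p * N' / d)
        ≤ (p - 1) * Nat.totient (N' / d) + if p ∣ N' / d then Nat.totient (N' / d) else 0 := by
      intro d hd
      have hd' : d ∣ N' := by
        have : d ∈ D ∧ d ∣ N' := by simpa [lowPart] using hd
        exact this.2
      have hE : p * N' / d = p * (N' / d) := Nat.mul_div_assoc _ hd'
      rw [hE]
      by_cases hpd : p ∣ N' / d
      · rw [Nat.totient_mul_of_prime_of_dvd hp hpd, if_pos hpd]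
        have h1 : p = (p - 1) + 1 := by omega
        have h2 : (p - 1) * Nat.totient (N' / d) + Nat.totient (N' / d)
            = p * Nat.totient (N' / d) := by
          conv_rhs => rw [h1]
          ring
        exact h2.ge
      · rw [Nat.totient_mul_of_prime_of_not_dvd hp hpd, if_neg hpd]
        simp
    calc ∑ d ∈ lowPart N' D, Nat.totient (p * N' / d)
        ≤ ∑ d ∈ lowPart N' D, ((p - 1) * Nat.totient (N' / d)
            + if p ∣ N' / d then Nat.totient (N' / d) else 0) := Finset.sum_le_sum hterm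
      _ = _ := by
          rw [Finset.sum_add_distrib, ← Finset.mul_sum, hA, Finset.sum_filter]
  -- high part
  have himg_inj : Set.InjOn (fun d => d / p) (highPart N' D : Set ℕ) := by
    intro d hd d' hd' h
    have hdm : d ∈ D ∧ ¬ d ∣ N' := by simpa [highPart] using hd
    have hdm' : d' ∈ D ∧ ¬ d' ∣ N' := by simpa [highPart] using hd'
    have hpd : ∀ {x}, x ∈ D ∧ ¬ x ∣ N' → p ∣ x := by
      intro x hx
      by_contra hpd
      have hc : Nat.Coprime x p := ((Nat.Prime.coprime_iff_not_dvd hp).mpr hpd).symm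
      exact hx.2 (hc.dvd_of_dvd_mul_left (hD x hx.1))
    have h' : d / p = d' / p := h
    calc d = p * (d / p) := (Nat.mul_div_cancel' (hpd hdm)).symm
      _ = p * (d' / p) := by rw [h']
      _ = d' := Nat.mul_div_cancel' (hpd hdm')
  have hhigh : ∑ d ∈ highPart N' D, Nat.totient (p * N' / d)
      = ∑ d' ∈ (highPart N' D).image (fun d => d / p), Nat.totient (N' / d') := by
    rw [Finset.sum_image himg_inj]
    apply Finset.sum_congr rfl
    intro d hd
    have hdm : d ∈ D ∧ ¬ d ∣ N' := by simpa [highPart] using hd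
    have hpd : p ∣ d := by
      by_contra hpd
      have hc : Nat.Coprime d p := ((Nat.Prime.coprime_iff_not_dvd hp).mpr hpd).symm
      exact hdm.2 (hc.dvd_of_dvd_mul_left (hD d hdm.1))
    obtain ⟨e, rfl⟩ := hpd
    rw [Nat.mul_div_cancel_left e hp0, Nat.mul_div_mul_left _ _ hp0]
  -- disjointness of A and the image
  have hdisj : Disjoint A ((highPart N' D).image (fun d => d / p)) := by
    rw [Finset.disjoint_left]
    intro x hxA hxI
    obtain ⟨d, hd, rfl⟩ := Finset.mem_image.mp hxI
    have hdm : d ∈ D ∧ ¬ d ∣ N' := by simpa [highPart] using hd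
    have hxA' := (Finset.mem_filter.mp hxA).2
    have hlowx := (Finset.mem_filter.mp hxA).1
    have hxdvd : d / p ∣ N' := (Finset.mem_filter.mp hlowx).2
    have hpd : p ∣ d := by
      by_contra hpd
      have hc : Nat.Coprime d p := ((Nat.Prime.coprime_iff_not_dvd hp).mpr hpd).symm
      exact hdm.2 (hc.dvd_of_dvd_mul_left (hD d hdm.1))
    apply hdm.2
    obtain ⟨s, hs⟩ := hxA'
    obtain ⟨e, rfl⟩ := hpd
    rw [Nat.mul_div_cancel_left e hp0] at hs hxdvd
    have : N' = e * (N' / e) := (Nat.mul_div_cancel' hxdvd).symm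
    rw [hs] at this
    exact ⟨s, by rw [this]; ring⟩
  have hsub : A ∪ (highPart N' D).image (fun d => d / p) ⊆ downSet p N' D := by
    apply Finset.union_subset
    · exact (Finset.filter_subset _ _).trans Finset.subset_union_left
    · exact Finset.subset_union_right
  have hsum : ∑ d ∈ A, Nat.totient (N' / d)
      + ∑ d' ∈ (highPart N' D).image (fun d => d / p), Nat.totient (N' / d')
      ≤ ∑ d ∈ downSet p N' D, Nat.totient (N' / d) := by
    rw [← Finset.sum_union hdisj]
    exact Finset.sum_le_sum_of_subset hsub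
  rw [hsplit, hhigh]
  omega

end Step

/-- **Rogers type bound.** The union of the classes `a d` mod `d`, `d ∈ D`, inside `range N`
has at least `∑ d ∈ D, φ (N / d)` elements. -/
theorem sum_totient_le_card_cosetUnion :
    ∀ (N : ℕ), 0 < N → ∀ (D : Finset ℕ), (∀ d ∈ D, d ∣ N) → ∀ a : ℕ → ℤ,
      ∑ d ∈ D, Nat.totient (N / d) ≤ (cosetUnion N D a).card := by
  intro N
  induction N using Nat.strong_induction_on with
  | _ N ih =>
    intro hN D hD a
    classical
    rcases Nat.lt_or_ge 1 N with h1 | h1
    · -- inductive step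
      have hp : N.minFac.Prime := Nat.minFac_prime (by omega)
      obtain ⟨N', hN'⟩ := Nat.minFac_dvd N
      set p := N.minFac with hpdef
      have hN'0 : 0 < N' := by
        rcases Nat.eq_zero_or_pos N' with h | h
        · rw [h] at hN'; omega
        · exact h
      have hN'lt : N' < N := by
        rw [hN']
        have := hp.two_le
        nlinarith
      have hDp : ∀ d ∈ D, d ∣ p * N' := by
        intro d hd
        rw [← hN']
        exact hD d hd
      have hlowD : ∀ d ∈ lowPart N' D, d ∣ N' := by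
        intro d hd
        exact (Finset.mem_filter.mp hd).2
      have hdownD : ∀ d ∈ downSet p N' D, d ∣ N' := by
        intro d hd
        rcases Finset.mem_union.mp hd with h | h
        · exact hlowD d h
        · obtain ⟨d0, hd0, rfl⟩ := Finset.mem_image.mp h
          have hdm : d0 ∈ D ∧ ¬ d0 ∣ N' := by simpa [highPart] using hd0
          have hpd : p ∣ d0 := by
            by_contra hpd
            have hc : Nat.Coprime d0 p := ((Nat.Prime.coprime_iff_not_dvd hp).mpr hpd).symm
            exact hdm.2 (hc.dvd_of_dvd_mul_left (hDp d0 hdm.1))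
          obtain ⟨e, rfl⟩ := hpd
          rw [Nat.mul_div_cancel_left e hp.pos]
          exact (Nat.mul_dvd_mul_iff_left hp.pos).mp (hDp _ hdm.1)
      have ih1 := ih N' hN'lt hN'0 (lowPart N' D) hlowD a
      have ih2 := ih N' hN'lt hN'0 (downSet p N' D) hdownD (downRes p N' D a)
      have hcount := card_step D a hp hN'0 hDp
      have htot := totient_step D hp hDp
      have hsub := low_subset_union (p := p) (N' := N') D a
      have hcard_sd := Finset.card_sdiff_of_subset hsub
      have hle := Finset.card_le_card hsub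
      rw [hN']
      set Y1 := cosetUnion N' (lowPart N' D) a
      set Y2 := cosetUnion N' (downSet p N' D) (downRes p N' D a)
      have hp1 : 1 ≤ p := hp.pos
      have hmul : p * Y1.card = (p - 1) * Y1.card + Y1.card := by
        conv_lhs => rw [show p = (p - 1) + 1 by omega]
        ring
      have h3 : (p - 1) * ∑ d ∈ lowPart N' D, Nat.totient (N' / d) ≤ (p - 1) * Y1.card :=
        Nat.mul_le_mul_left _ ih1
      omega
    · -- N = 1
      have hN1 : N = 1 := by omega
      subst hN1
      by_cases hDe : D = ∅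
      · simp [hDe]
      · obtain ⟨d, hd⟩ := Finset.nonempty_iff_ne_empty.mpr hDe
        have hd1 : d = 1 := Nat.dvd_one.mp (hD d hd)
        subst hd1
        have hDs : D = {1} := by
          apply Finset.eq_singleton_iff_unique_mem.mpr
          exact ⟨hd, fun x hx => Nat.dvd_one.mp (hD x hx)⟩
        subst hDs
        have h0 : (0 : ℕ) ∈ cosetUnion 1 {1} a :=
          mem_cosetUnion.mpr ⟨by norm_num, 1, by simp, by simp⟩
        have : 1 ≤ (cosetUnion 1 {1} a).card := Finset.card_pos.mpr ⟨0, h0⟩
        simpa using this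

end Vale.Agent.Lib.P028
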